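import Vale.Agent.Lib.P069.Dual

/-!
# Reflexivity of the dual of the James tree space over the tree
-/

namespace Vale.Agent.Lib.P069

open Finset RTree
open scoped Classical

variable {T : Type} [RTree T]

set_option linter.unusedSectionVars false

/-- truncation of a functional to a finite set of nodes -/
noncomputable def trunc (D : Finset T) (x : StrongDual ℝ (T →₀ ℝ)) : StrongDual ℝ (T →₀ ℝ) :=
  ∑ γ ∈ D, x (Finsupp.single γ 1) • ev γ

lemma trunc_apply (D : Finset T) (x : StrongDual ℝ (T →₀ ℝ)) (g : T →₀ ℝ) :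
    trunc D x g = x (g.filter (· ∈ D)) := by
  rw [apply_eq_sum x (g.filter (· ∈ D)) (D := D) (by intro γ hγ; simp [hγ])]
  simp only [trunc, FunLike.coe_sum, Finset.sum_apply,
    FunLike.coe_smul, Pi.smul_apply, ev_apply, smul_eq_mul]
  apply sum_congr rfl
  intro γ hγ
  simp [hγ, mul_comm]

lemma norm_trunc_le {D : Finset T} (hD : IsLowerF D) (x : StrongDual ℝ (T →₀ ℝ)) :
    ‖trunc D x‖ ≤ ‖x‖ := by
  apply ContinuousLinearMap.opNorm_le_bound _ (norm_nonneg _)
  intro g
  rw [trunc_apply]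
  exact (x.le_opNorm _).trans (mul_le_mul_of_nonneg_left (norm_filter_le (conv_mem hD) g)
    (norm_nonneg _))

lemma norm_sub_trunc_le {x : StrongDual ℝ (T →₀ ℝ)} {A D : Finset T} {ε : ℝ} (hε : 0 ≤ ε)
    (hA : ∀ g : T →₀ ℝ, (∀ γ ∈ A, g γ = 0) → |x g| ≤ ε * ‖g‖)
    (hD : IsLowerF D) (hAD : A ⊆ D) : ‖x - trunc D x‖ ≤ ε := by
  apply ContinuousLinearMap.opNorm_le_bound _ hε
  intro g
  rw [sub_apply, trunc_apply]
  have h1 : x g - x (g.filter (· ∈ D)) = x (g.filter (· ∉ D)) := by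
    rw [← map_sub]
    congr 1
    have := Finsupp.filter_add_filter_not g (· ∈ D)
    rw [sub_eq_iff_eq_add, add_comm]
    exact this.symm
  rw [h1, Real.norm_eq_abs]
  refine (hA _ ?_).trans (mul_le_mul_of_nonneg_left (norm_filter_le (conv_not_mem hD) g) hε)
  intro γ hγ
  simp [hAD hγ]

/-- the finitely supported function attached to a functional on the dual, on a finite set -/
noncomputable def zOf (f : StrongDual ℝ (StrongDual ℝ (T →₀ ℝ))) (D : Finset T) : T →₀ ℝ :=
  Finsupp.onFinset D (fun γ => if γ ∈ D then f (ev γ) else 0) (by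
    intro γ hne
    by_contra hγ
    simp [hγ] at hne)

lemma zOf_apply (f : StrongDual ℝ (StrongDual ℝ (T →₀ ℝ))) (D : Finset T) (γ : T) :
    zOf f D γ = if γ ∈ D then f (ev γ) else 0 := rfl

lemma f_trunc (f : StrongDual ℝ (StrongDual ℝ (T →₀ ℝ))) (D : Finset T)
    (x : StrongDual ℝ (T →₀ ℝ)) : f (trunc D x) = x (zOf f D) := by
  rw [apply_eq_sum x (zOf f D) (D := D) (by intro γ hγ; simp [zOf_apply, hγ])]
  simp only [trunc, map_sum, map_smul, smul_eq_mul]
  apply sum_congr rfl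
  intro γ hγ
  rw [zOf_apply, if_pos hγ, mul_comm]

lemma norm_zOf_le (f : StrongDual ℝ (StrongDual ℝ (T →₀ ℝ))) {D : Finset T} (hD : IsLowerF D) :
    ‖zOf f D‖ ≤ ‖f‖ := by
  refine NormedSpace.norm_le_dual_bound ℝ (zOf f D) (M := ‖f‖) (norm_nonneg f) ?_
  intro x
  rw [← f_trunc]
  exact (f.le_opNorm _).trans (mul_le_mul_of_nonneg_left (norm_trunc_le hD x) (norm_nonneg _))

/-- superadditivity of the square of the norm -/
lemma norm_sq_add_le {D : Finset T} (hD : IsLowerF D) {u v : T →₀ ℝ}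
    (hu : ∀ γ, γ ∉ D → u γ = 0) (hv : ∀ γ ∈ D, v γ = 0) :
    ‖u‖ ^ 2 + ‖v‖ ^ 2 ≤ ‖u + v‖ ^ 2 := by
  have hval1 : ∀ S : Finset T, sg (u + v) (S.filter (· ∈ D)) = sg u S := by
    intro S
    have h1 : sg u S = sg u (S.filter (· ∈ D)) + sg u (S.filter (· ∉ D)) := by
      simp only [sg]
      rw [sum_filter_add_sum_filter_not]
    have h2 : sg u (S.filter (· ∉ D)) = 0 := by
      apply sum_eq_zero
      intro c hc
      exact hu c (mem_filter.mp hc).2
    have h3 : sg v (S.filter (· ∈ D)) = 0 := by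
      apply sum_eq_zero
      intro c hc
      exact hv c (mem_filter.mp hc).2
    rw [sg_add, h1, h2, h3]
  have hval2 : ∀ S : Finset T, sg (u + v) (S.filter (· ∉ D)) = sg v S := by
    intro S
    have h1 : sg v S = sg v (S.filter (· ∈ D)) + sg v (S.filter (· ∉ D)) := by
      simp only [sg]
      rw [sum_filter_add_sum_filter_not]
    have h2 : sg u (S.filter (· ∉ D)) = 0 := by
      apply sum_eq_zero
      intro c hc
      exact hu c (mem_filter.mp hc).2
    have h3 : sg v (S.filter (· ∈ D)) = 0 := by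
      apply sum_eq_zero
      intro c hc
      exact hv c (mem_filter.mp hc).2
    rw [sg_add, h1, h2, h3]
  have hfam : ∀ 𝒮u 𝒮v : Finset (Finset T), Fam 𝒮u id → Fam 𝒮v id →
      ∑ S ∈ 𝒮u, (sg u S) ^ 2 + ∑ S ∈ 𝒮v, (sg v S) ^ 2 ≤ ‖u + v‖ ^ 2 := by
    intro 𝒮u 𝒮v hu' hv'
    have hF : Fam (𝒮u.disjSum 𝒮v)
        (Sum.elim (fun S => S.filter (· ∈ D)) (fun S => S.filter (· ∉ D))) := by
      constructor
      · rintro (S | S) hS
        · exact isSeg_filter (conv_mem hD) (hu'.seg S (by simpa using hS))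
        · exact isSeg_filter (conv_not_mem hD) (hv'.seg S (by simpa using hS))
      · rintro (S | S) hS (S' | S') hS' hne
        · have hne' : S ≠ S' := fun h => hne (by rw [h])
          have := hu'.disj S (by simpa using hS) S' (by simpa using hS') hne'
          simp only [id] at this
          exact disjoint_of_subset_left (filter_subset _ _)
            (disjoint_of_subset_right (filter_subset _ _) this)
        · simp only [Sum.elim_inl, Sum.elim_inr]
          rw [disjoint_left]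
          intro c hc hc'
          exact (mem_filter.mp hc').2 (mem_filter.mp hc).2
        · simp only [Sum.elim_inl, Sum.elim_inr]
          rw [disjoint_left]
          intro c hc hc'
          exact (mem_filter.mp hc).2 (mem_filter.mp hc').2
        · have hne' : S ≠ S' := fun h => hne (by rw [h])
          have := hv'.disj S (by simpa using hS) S' (by simpa using hS') hne'
          simp only [id] at this
          exact disjoint_of_subset_left (filter_subset _ _)
            (disjoint_of_subset_right (filter_subset _ _) this)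
    have h := fam_le' hF (u + v)
    rw [sum_disjSum] at h
    simpa only [Sum.elim_inl, Sum.elim_inr, hval1, hval2] using h
  have h1 : ∀ 𝒮v : Finset (Finset T), Fam 𝒮v id →
      ∑ S ∈ 𝒮v, (sg v S) ^ 2 ≤ ‖u + v‖ ^ 2 - ‖u‖ ^ 2 := by
    intro 𝒮v hv'
    have h2 : ‖u‖ ^ 2 ≤ ‖u + v‖ ^ 2 - ∑ S ∈ 𝒮v, (sg v S) ^ 2 := by
      apply norm_sq_le_of
      intro 𝒮u hu'
      have := hfam 𝒮u 𝒮v hu' hv'
      linarith
    linarith
  have h2 : ‖v‖ ^ 2 ≤ ‖u + v‖ ^ 2 - ‖u‖ ^ 2 := norm_sq_le_of h1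
  linarith

lemma isLowerF_union {A B : Finset T} (hA : IsLowerF A) (hB : IsLowerF B) : IsLowerF (A ∪ B) := by
  intro a b hab hb
  rcases mem_union.mp hb with h | h
  · exact mem_union.mpr (Or.inl (hA a b hab h))
  · exact mem_union.mpr (Or.inr (hB a b hab h))

/-- functionals on the dual are limits of evaluations -/
theorem approx (f : StrongDual ℝ (StrongDual ℝ (T →₀ ℝ))) {ε : ℝ} (hε : 0 < ε) :
    ∃ z : T →₀ ℝ, ∀ x : StrongDual ℝ (T →₀ ℝ), |f x - x z| ≤ ε * ‖x‖ := by
  let V : Set ℝ := {r | ∃ D : Finset T, IsLowerF D ∧ r = ‖zOf f D‖ ^ 2}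
  have hVne : V.Nonempty := ⟨_, ∅, by simp [IsLowerF], rfl⟩
  have hVbdd : BddAbove V := by
    refine ⟨‖f‖ ^ 2, ?_⟩
    rintro r ⟨D, hD, rfl⟩
    exact pow_le_pow_left₀ (norm_nonneg _) (norm_zOf_le f hD) 2
  have hlt : sSup V - ε ^ 2 < sSup V := by
    have : 0 < ε ^ 2 := by positivity
    linarith
  obtain ⟨r, ⟨Ds, hDs, rfl⟩, hr⟩ := exists_lt_of_lt_csSup hVne hlt
  refine ⟨zOf f Ds, ?_⟩
  intro x
  -- comparison with a larger lower set
  have hbig : ∀ D : Finset T, IsLowerF D → Ds ⊆ D → ‖zOf f D - zOf f Ds‖ ≤ ε := by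
    intro D hD hsub
    have h1 := norm_sq_add_le (D := Ds) hDs (u := zOf f Ds) (v := zOf f D - zOf f Ds)
      (by intro γ hγ; simp [zOf_apply, hγ])
      (by
        intro γ hγ
        simp [Finsupp.sub_apply, zOf_apply, hγ, hsub hγ])
    rw [add_sub_cancel] at h1
    have h2 : ‖zOf f D‖ ^ 2 ≤ sSup V := le_csSup hVbdd ⟨D, hD, rfl⟩
    have h3 : ‖zOf f D - zOf f Ds‖ ^ 2 ≤ ε ^ 2 := by linarith
    exact abs_le_of_sq_le_sq' h3 hε.le |>.2
  apply le_of_forall_pos_le_add
  intro η hη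
  have hfpos : 0 < ‖f‖ + 1 := by positivity
  obtain ⟨A, hA1, hA2, hA3⟩ := tail_small x (div_pos hη hfpos)
  let D := A ∪ Ds
  have hD : IsLowerF D := isLowerF_union hA1 hDs
  have h1 := norm_sub_trunc_le (div_pos hη hfpos).le hA3 hD subset_union_left
  have h2 := hbig D hD subset_union_right
  have h3 : f x - x (zOf f Ds) = f (x - trunc D x) + x (zOf f D - zOf f Ds) := by
    rw [map_sub, map_sub, f_trunc]; ring
  rw [h3]
  have h4 : |f (x - trunc D x)| ≤ ‖f‖ * (η / (‖f‖ + 1)) := by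
    have := f.le_opNorm (x - trunc D x)
    rw [Real.norm_eq_abs] at this
    exact this.trans (mul_le_mul_of_nonneg_left h1 (norm_nonneg _))
  have h5 : ‖f‖ * (η / (‖f‖ + 1)) ≤ η := by
    rw [mul_div_assoc', div_le_iff₀ hfpos]
    nlinarith [norm_nonneg f]
  have h6 : |x (zOf f D - zOf f Ds)| ≤ ε * ‖x‖ := by
    have := x.le_opNorm (zOf f D - zOf f Ds)
    rw [Real.norm_eq_abs] at this
    refine this.trans ?_
    rw [mul_comm]
    exact mul_le_mul_of_nonneg_right h2 (norm_nonneg _)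
  calc |f (x - trunc D x) + x (zOf f D - zOf f Ds)|
      ≤ |f (x - trunc D x)| + |x (zOf f D - zOf f Ds)| := abs_add_le _ _
    _ ≤ ε * ‖x‖ + η := by linarith

/-- the dual of the James tree space is reflexive -/
theorem reflexive_X :
    Function.Surjective (NormedSpace.inclusionInDoubleDual ℝ (StrongDual ℝ (T →₀ ℝ))) := by
  intro Φ
  let ι := NormedSpace.inclusionInDoubleDual ℝ (T →₀ ℝ)
  let x : StrongDual ℝ (T →₀ ℝ) := Φ.comp ι
  refine ⟨x, ?_⟩
  ext f
  rw [NormedSpace.dual_def]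
  have key : ∀ ε : ℝ, 0 < ε → |f x - Φ f| ≤ ε * (‖x‖ + ‖Φ‖) := by
    intro ε hε
    obtain ⟨z, hz⟩ := approx f hε
    have h1 : ‖f - ι z‖ ≤ ε := by
      apply ContinuousLinearMap.opNorm_le_bound _ hε.le
      intro x'
      rw [sub_apply, Real.norm_eq_abs]
      exact hz x'
    have h2 : Φ (ι z) = x z := rfl
    have h3 : f x - Φ f = (f x - x z) - Φ (f - ι z) := by
      rw [map_sub, h2]; ring
    rw [h3]
    have h4 : |Φ (f - ι z)| ≤ ‖Φ‖ * ε := by
      have := Φ.le_opNorm (f - ι z)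
      rw [Real.norm_eq_abs] at this
      exact this.trans (mul_le_mul_of_nonneg_left h1 (norm_nonneg _))
    calc |f x - x z - Φ (f - ι z)| ≤ |f x - x z| + |Φ (f - ι z)| := abs_sub _ _
      _ ≤ ε * ‖x‖ + ‖Φ‖ * ε := add_le_add (hz x) h4
      _ = ε * (‖x‖ + ‖Φ‖) := by ring
  have h0 : |f x - Φ f| ≤ 0 := by
    apply le_of_forall_pos_le_add
    intro η hη
    have hpos : 0 < ‖x‖ + ‖Φ‖ + 1 := by positivity
    have h1 := key (η / (‖x‖ + ‖Φ‖ + 1)) (div_pos hη hpos)
    rw [zero_add]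
    refine h1.trans ?_
    rw [div_mul_eq_mul_div, div_le_iff₀ hpos]
    nlinarith [norm_nonneg x, norm_nonneg Φ]
  have h1 := abs_nonpos_iff.mp h0
  linarith

end Vale.Agent.Lib.P069
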