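import Vale.Agent.Lib.P069.Ops

/-!
# The splitting lemma: the heart of the midpoint estimate
-/

namespace Vale.Agent.Lib.P069

open Finset RTree
open scoped Classical

variable {T : Type} [RTree T]

set_option linter.unusedSectionVars false

lemma key_ineq_good {a b ν θ : ℝ} (hν : ν = 1 ∨ ν = -1) (hb : ν * b ≤ 0) (ha : 0 ≤ ν * a)
    (hθ : 0 < θ) : (a + θ * b) ^ 2 ≤ a ^ 2 + θ ^ 2 * b ^ 2 := by
  have h : a * b ≤ 0 := by
    rcases hν with rfl | rfl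
    · nlinarith
    · nlinarith
  nlinarith [mul_nonneg hθ.le (neg_nonneg.mpr h)]

lemma key_ineq_small {a b θ ω : ℝ} (ha : |a| < θ * ω) (hb : |b| ≤ ω)
    (hθ : 0 < θ) : (a + θ * b) ^ 2 ≤ a ^ 2 + θ ^ 2 * b ^ 2 + 2 * θ ^ 2 * ω ^ 2 := by
  have h1 : |a * (θ * b)| ≤ (θ * ω) * (θ * ω) := by
    rw [abs_mul, abs_mul, abs_of_pos hθ]
    have h2 : θ * |b| ≤ θ * ω := by gcongr
    have hω : 0 ≤ ω := (abs_nonneg b).trans hb
    exact mul_le_mul ha.le h2 (by positivity) (by positivity)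
  have h3 := (abs_le.mp h1).2
  nlinarith

lemma key_ineq_large {a b p q ν θ ω : ℝ} (hν : ν = 1 ∨ ν = -1) (hb : ν * b ≤ 0) (ha : ν * a < 0)
    (hbω : |b| ≤ ω) (hθ : 0 < θ) (hsum : a = p + q) (hq : θ * ω ≤ ν * q) :
    (a + θ * b) ^ 2 ≤ p ^ 2 + q ^ 2 + θ ^ 2 * b ^ 2 := by
  have h1 : θ * |b| ≤ θ * ω := by gcongr
  subst hsum
  rcases hν with rfl | rfl
  · have hb' : b ≤ 0 := by linarith
    rw [abs_of_nonpos hb'] at h1
    have h2 : 0 ≤ (-(p + q)) * (q + θ * b) :=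
      mul_nonneg (by linarith) (by nlinarith)
    nlinarith [sq_nonneg q]
  · have hb' : 0 ≤ b := by linarith
    rw [abs_of_nonneg hb'] at h1
    have h2 : 0 ≤ (p + q) * (-q - θ * b) :=
      mul_nonneg (by linarith) (by nlinarith)
    nlinarith [sq_nonneg q]

/-- the clipped potential -/
noncomputable def Psi (A : Finset T) (h : T →₀ ℝ) (ε : T → ℝ) (τ : ℝ) (γ : T) : ℝ :=
  if γ ∈ A then 0 else -(ε γ) * max (τ * ε γ * pot h γ) 0

lemma Psi_mem {A : Finset T} {h : T →₀ ℝ} {ε : T → ℝ} {τ : ℝ} {γ : T} (hγ : γ ∈ A) :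
    Psi A h ε τ γ = 0 := by simp [Psi, hγ]

lemma Psi_not_mem {A : Finset T} {h : T →₀ ℝ} {ε : T → ℝ} {τ : ℝ} {γ : T} (hγ : γ ∉ A) :
    Psi A h ε τ γ = -(ε γ) * max (τ * ε γ * pot h γ) 0 := by simp [Psi, hγ]

lemma abs_of_sign {e : ℝ} (he : e = 1 ∨ e = -1) : |e| = 1 := by
  rcases he with rfl | rfl <;> simp

lemma Psi_lip {A : Finset T} (hA : IsLowerF A) {h : T →₀ ℝ} (hh : ∀ γ ∈ A, h γ = 0)
    {ε : T → ℝ} (hε1 : ∀ γ, ε γ = 1 ∨ ε γ = -1)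
    (hε2 : ∀ γ γ', γ ∉ A → γ ≤ γ' → ε γ = ε γ') {τ : ℝ} (hτ : τ = 1 ∨ τ = -1)
    {γ₁ γ₂ : T} (h12 : γ₁ ≤ γ₂) (h2 : γ₂ ∉ A) :
    |Psi A h ε τ γ₂ - Psi A h ε τ γ₁| ≤ |pot h γ₂ - pot h γ₁| := by
  by_cases h1 : γ₁ ∈ A
  · rw [Psi_mem h1, pot_eq_zero_of_mem hA hh h1, sub_zero, sub_zero, Psi_not_mem h2, abs_mul,
      abs_neg, abs_of_sign (hε1 γ₂), one_mul]
    have h3 : |τ * ε γ₂ * pot h γ₂| = |pot h γ₂| := by
      rw [abs_mul, abs_mul, abs_of_sign hτ, abs_of_sign (hε1 γ₂)]; ring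
    rw [abs_of_nonneg (le_max_right _ _), ← h3]
    exact max_le (le_abs_self _) (abs_nonneg _)
  · have he : ε γ₁ = ε γ₂ := hε2 γ₁ γ₂ h1 h12
    rw [Psi_not_mem h2, Psi_not_mem h1, he]
    have h3 := abs_max_sub_max_le_abs (τ * ε γ₂ * pot h γ₂) (τ * ε γ₂ * pot h γ₁) 0
    have h4 : -ε γ₂ * max (τ * ε γ₂ * pot h γ₂) 0 - -ε γ₂ * max (τ * ε γ₂ * pot h γ₁) 0
        = -ε γ₂ * (max (τ * ε γ₂ * pot h γ₂) 0 - max (τ * ε γ₂ * pot h γ₁) 0) := by ring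
    rw [h4, abs_mul, abs_neg, abs_of_sign (hε1 γ₂), one_mul]
    refine h3.trans (le_of_eq ?_)
    have h5 : τ * ε γ₂ * pot h γ₂ - τ * ε γ₂ * pot h γ₁ = τ * ε γ₂ * (pot h γ₂ - pot h γ₁) := by
      ring
    rw [h5, abs_mul, abs_mul, abs_of_sign hτ, abs_of_sign (hε1 γ₂)]
    ring

lemma Psi_sub_self {A : Finset T} (hA : IsLowerF A) {h : T →₀ ℝ} (hh : ∀ γ ∈ A, h γ = 0)
    {ε : T → ℝ} (hε1 : ∀ γ, ε γ = 1 ∨ ε γ = -1) (γ : T) :
    Psi A h ε (-1) γ - Psi A h ε 1 γ = pot h γ := by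
  by_cases h1 : γ ∈ A
  · rw [Psi_mem h1, Psi_mem h1, pot_eq_zero_of_mem hA hh h1]; simp
  · rw [Psi_not_mem h1, Psi_not_mem h1]
    rcases hε1 γ with he | he <;> rw [he]
    · have := max_zero_sub_max_neg_zero_eq_self (pot h γ)
      simp only [neg_mul, one_mul]
      linarith
    · have := max_zero_sub_max_neg_zero_eq_self (pot h γ)
      simp only [neg_mul, mul_neg, mul_one, neg_neg, one_mul]
      linarith

/-- the increments of the clipped potential are finitely supported -/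
lemma exists_clip {A : Finset T} (hA : IsLowerF A) {h : T →₀ ℝ} (hh : ∀ γ ∈ A, h γ = 0)
    (hroot : root ∈ A) {ε : T → ℝ} (hε1 : ∀ γ, ε γ = 1 ∨ ε γ = -1)
    (hε2 : ∀ γ γ', γ ∉ A → γ ≤ γ' → ε γ = ε γ') {τ : ℝ} (hτ : τ = 1 ∨ τ = -1) :
    ∃ k : T →₀ ℝ, ∀ γ, k γ = Psi A h ε τ γ - Psi A h ε τ (par γ) := by
  refine ⟨Finsupp.onFinset h.support (fun γ => Psi A h ε τ γ - Psi A h ε τ (par γ)) ?_, ?_⟩
  · intro γ hne
    by_contra hγ
    have hz : h γ = 0 := Finsupp.notMem_support_iff.mp hγ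
    apply hne
    by_cases h1 : γ ∈ A
    · rw [Psi_mem h1, Psi_mem (hA _ _ (par_le γ) h1), sub_zero]
    · have hr : γ ≠ root := by
        rintro rfl
        exact h1 hroot
      have h3 := pot_sub_par h hr
      rw [hz] at h3
      have h4 := Psi_lip hA hh hε1 hε2 hτ (par_le γ) h1
      rw [h3, abs_zero] at h4
      exact abs_nonpos_iff.mp h4
  · intro γ
    rfl

section
variable {A : Finset T} (hA : IsLowerF A) {g h : T →₀ ℝ} (hg : ∀ γ, γ ∉ A → g γ = 0)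
  (hh : ∀ γ ∈ A, h γ = 0) (hroot : root ∈ A) {ε : T → ℝ}
  (hε1 : ∀ γ, ε γ = 1 ∨ ε γ = -1)
  (hε2 : ∀ γ γ', γ ∉ A → γ ≤ γ' → ε γ = ε γ') {τ : ℝ} (hτ : τ = 1 ∨ τ = -1)
  {k : T →₀ ℝ} (hk : ∀ γ, k γ = Psi A h ε τ γ - Psi A h ε τ (par γ))

include hA hk in
lemma k_mem {γ : T} (hγ : γ ∈ A) : k γ = 0 := by
  rw [hk, Psi_mem hγ, Psi_mem (hA _ _ (par_le γ) hγ), sub_zero]

include hA hh hroot hε1 hε2 hτ hk in
/-- increments over a segment outside `A` are dominated by those of `h` -/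
lemma abs_sg_clip_le {S : Finset T} (hS : IsSeg S) :
    |sg k (S.filter (· ∉ A))| ≤ |sg h (S.filter (· ∉ A))| := by
  have hseg := isSeg_filter (conv_not_mem hA) hS
  by_cases hne : (S.filter (· ∉ A)).Nonempty
  · obtain ⟨b, t, hb, ht, hbt, heq⟩ := exists_icc hseg hne
    have hbA : b ∉ A := (mem_filter.mp hb).2
    have htA : t ∉ A := (mem_filter.mp ht).2
    have hbr : b ≠ root := by
      rintro rfl
      exact hbA hroot
    rw [heq]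
    have h1 : sg k (icc b t) = Psi A h ε τ t - Psi A h ε τ (par b) :=
      sum_icc_telescope (fun c => k c) (Psi A h ε τ) (fun c _ => hk c) hbr _ t rfl hbt
    have h2 : sg h (icc b t) = pot h t - pot h (par b) :=
      sum_icc_telescope (fun c => h c) (pot h) (fun c hc => (pot_sub_par h hc).symm) hbr _ t rfl hbt
    rw [h1, h2]
    exact Psi_lip hA hh hε1 hε2 hτ ((par_le b).trans hbt) htA
  · rw [not_nonempty_iff_eq_empty] at hne
    rw [hne, sg_empty, sg_empty]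

include hA hh hroot hε1 hε2 hτ hk in
lemma norm_clip_le : ‖k‖ ≤ ‖h‖ := by
  apply norm_le_of (norm_nonneg _)
  intro 𝒮 h𝒮
  have hF : Fam 𝒮 (fun S => S.filter (· ∉ A)) :=
    ⟨fun S hS => isSeg_filter (conv_not_mem hA) (h𝒮.seg S hS), fun i hi j hj hij => by
      have := h𝒮.disj i hi j hj hij
      simp only [id] at this
      exact disjoint_of_subset_left (filter_subset _ _)
        (disjoint_of_subset_right (filter_subset _ _) this)⟩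
  refine le_trans ?_ (fam_le' hF h)
  apply sum_le_sum
  intro S hS
  have h1 : sg k S = sg k (S.filter (· ∉ A)) := by
    simp only [sg]
    rw [sum_filter]
    apply sum_congr rfl
    intro c _
    by_cases hc : c ∈ A
    · simp [hc, k_mem hA hk hc]
    · simp [hc]
  rw [h1, sq_le_sq]
  exact abs_sg_clip_le hA hh hroot hε1 hε2 hτ hk (h𝒮.seg S hS)

end

/-- the bound for one segment -/
lemma segment_bound {A : Finset T} (hA : IsLowerF A) {g h : T →₀ ℝ}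
    (hg : ∀ γ, γ ∉ A → g γ = 0) (hh : ∀ γ ∈ A, h γ = 0) (hroot : root ∈ A)
    {θ : ℝ} (hθ : 0 < θ)
    {top : T → T} (htop1 : ∀ δ, δ ≤ top δ) (htop2 : ∀ δ γ, δ ≤ γ → |pot h γ| ≤ |pot h (top δ)|)
    {ν : T → ℝ} (hν1 : ∀ δ, ν δ = 1 ∨ ν δ = -1)
    (hν2 : ∀ δ b, b < δ → ν δ * sg g (ico b δ) < 0 →
      ν δ * sg g (ico b δ) ≤ -(θ * |pot h (top δ)|) →
      ∃ c, b < c ∧ c < δ ∧ θ * |pot h (top δ)| ≤ ν δ * sg g (ico c δ))
    {ε : T → ℝ} (hε0 : ε = fun γ => ν (cut A γ)) (hε1 : ∀ γ, ε γ = 1 ∨ ε γ = -1)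
    (hε2 : ∀ γ γ', γ ∉ A → γ ≤ γ' → ε γ = ε γ') {τ : ℝ} (hτ : τ = 1 ∨ τ = -1)
    {k : T →₀ ℝ} (hk : ∀ γ, k γ = Psi A h ε τ γ - Psi A h ε τ (par γ))
    (S : Finset T) (hS : IsSeg S) :
    ∃ P Q W : Finset T, IsSeg P ∧ IsSeg Q ∧ IsSeg W ∧ P ⊆ S ∧ Q ⊆ S ∧ Disjoint P Q ∧
      (W = ∅ ∨ ∃ δ ∈ S, IsCut A δ ∧ ∀ γ ∈ W, δ ≤ γ) ∧
      (sg (g + θ • k) S) ^ 2 ≤ (sg g P) ^ 2 + (sg g Q) ^ 2
        + θ ^ 2 * (sg h (S.filter (· ∉ A))) ^ 2 + 2 * θ ^ 2 * (sg h W) ^ 2 := by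
  set S₁ := S.filter (· ∈ A) with hS₁
  set S₂ := S.filter (· ∉ A) with hS₂
  have hseg₁ : IsSeg S₁ := isSeg_filter (conv_mem hA) hS
  have hseg₂ : IsSeg S₂ := isSeg_filter (conv_not_mem hA) hS
  have hg₂ : sg g S₂ = 0 := by
    apply sum_eq_zero
    intro c hc
    exact hg c (mem_filter.mp hc).2
  have hk₁ : sg k S₁ = 0 := by
    apply sum_eq_zero
    intro c hc
    exact k_mem hA hk (mem_filter.mp hc).2
  have hsplit : ∀ f : T →₀ ℝ, sg f S = sg f S₁ + sg f S₂ := by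
    intro f
    simp only [sg, hS₁, hS₂]
    rw [sum_filter_add_sum_filter_not]
  have hmain : sg (g + θ • k) S = sg g S₁ + θ * sg k S₂ := by
    rw [sg_add, sg_smul, hsplit g, hsplit k, hg₂, hk₁]; ring
  have hbound : |sg k S₂| ≤ |sg h S₂| := abs_sg_clip_le hA hh hroot hε1 hε2 hτ hk hS
  by_cases hne₂ : S₂.Nonempty
  swap
  · -- no part outside `A`
    rw [not_nonempty_iff_eq_empty] at hne₂
    refine ⟨S₁, ∅, ∅, hseg₁, isSeg_empty, isSeg_empty, filter_subset _ _, by simp, by simp,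
      Or.inl rfl, ?_⟩
    rw [hmain, hne₂]
    simp only [sg_empty]
    simp
  by_cases hne₁ : S₁.Nonempty
  swap
  · -- no part inside `A`
    rw [not_nonempty_iff_eq_empty] at hne₁
    refine ⟨∅, ∅, ∅, isSeg_empty, isSeg_empty, isSeg_empty, by simp, by simp, by simp,
      Or.inl rfl, ?_⟩
    rw [hmain, hne₁]
    simp only [sg_empty]
    rw [zero_add, mul_pow]
    have h1 : (sg k S₂) ^ 2 ≤ (sg h S₂) ^ 2 := sq_le_sq.mpr hbound
    have h2 : θ ^ 2 * (sg k S₂) ^ 2 ≤ θ ^ 2 * (sg h S₂) ^ 2 :=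
      mul_le_mul_of_nonneg_left h1 (by positivity)
    nlinarith
  -- the crossing case
  obtain ⟨δ, t, hδ, ht, hδt, heq₂⟩ := exists_icc hseg₂ hne₂
  obtain ⟨b, t₁, hb, ht₁, hbt₁, heq₁⟩ := exists_icc hseg₁ hne₁
  have hδS : δ ∈ S := (mem_filter.mp hδ).1
  have hδA : δ ∉ A := (mem_filter.mp hδ).2
  have htA : t ∉ A := (mem_filter.mp ht).2
  have hbS : b ∈ S := (mem_filter.mp hb).1
  have hbA : b ∈ A := (mem_filter.mp hb).2
  -- elements of the inner part lie below `δ`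
  have hlt : ∀ a ∈ S₁, a < δ := by
    intro a ha
    have ha' := mem_filter.mp ha
    rcases hS.1 a ha'.1 δ hδS with h1 | h1
    · exact lt_of_le_of_ne h1 (by rintro rfl; exact hδA ha'.2)
    · exact absurd (hA _ _ h1 ha'.2) hδA
  have hbδ : b < δ := hlt b hb
  have hcut : IsCut A δ := by
    refine ⟨hδA, ?_⟩
    intro c hc
    rcases le_total_of_le hc.le hbδ.le with h1 | h1
    · exact hA _ _ h1 hbA
    · by_contra hcA
      have hcS : c ∈ S := hS.2 b hbS δ hδS c h1 hc.le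
      have : c ∈ S₂ := mem_filter.mpr ⟨hcS, hcA⟩
      rw [heq₂] at this
      exact absurd (mem_icc.mp this).1 hc.not_ge
  have heq₁' : S₁ = ico b δ := by
    ext c
    rw [mem_ico]
    constructor
    · intro hc
      refine ⟨?_, hlt c hc⟩
      rw [heq₁] at hc
      exact (mem_icc.mp hc).1
    · rintro ⟨h1, h2⟩
      exact mem_filter.mpr ⟨hS.2 b hbS δ hδS c h1 h2.le, hcut.2 c h2⟩
  have hεt : ε t = ν δ := by
    rw [hε0]
    show ν (cut A t) = ν δ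
    rw [cut_eq hcut hδt]
  -- the value of the increments of the clipped function
  have hδr : δ ≠ root := by
    rintro rfl
    exact hδA hroot
  have hparA : par δ ∈ A := hcut.2 _ (par_lt hδr)
  have hksum : sg k S₂ = Psi A h ε τ t := by
    rw [heq₂]
    have h1 : sg k (icc δ t) = Psi A h ε τ t - Psi A h ε τ (par δ) :=
      sum_icc_telescope (fun c => k c) (Psi A h ε τ) (fun c _ => hk c) hδr _ t rfl hδt
    rw [h1, Psi_mem hparA, sub_zero]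
  have hνt := hν1 δ
  have hPsi : Psi A h ε τ t = -(ν δ) * max (τ * ν δ * pot h t) 0 := by
    rw [Psi_not_mem htA, hεt]
  set ω := |pot h (top δ)| with hω
  have hb1 : ν δ * sg k S₂ ≤ 0 := by
    rw [hksum, hPsi]
    have h1 : ν δ * (-(ν δ) * max (τ * ν δ * pot h t) 0)
        = -((ν δ * ν δ) * max (τ * ν δ * pot h t) 0) := by ring
    have h2 : ν δ * ν δ = 1 := by rcases hνt with h | h <;> rw [h] <;> norm_num
    rw [h1, h2, one_mul]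
    exact neg_nonpos.mpr (le_max_right _ _)
  have hb2 : |sg k S₂| ≤ ω := by
    rw [hksum, hPsi, abs_mul, abs_neg, abs_of_sign hνt, one_mul,
      abs_of_nonneg (le_max_right _ _)]
    apply max_le
    · have h1 : |τ * ν δ * pot h t| = |pot h t| := by
        rw [abs_mul, abs_mul, abs_of_sign hτ, abs_of_sign hνt]; ring
      exact (le_abs_self _).trans (h1.le.trans (htop2 δ t hδt))
    · exact abs_nonneg _
  have hW : (sg h (icc δ (top δ))) ^ 2 = ω ^ 2 := by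
    have h1 : sg h (icc δ (top δ)) = pot h (top δ) - pot h (par δ) :=
      sum_icc_telescope (fun c => h c) (pot h) (fun c hc => (pot_sub_par h hc).symm) hδr _ _ rfl
        (htop1 δ)
    rw [h1, pot_eq_zero_of_mem hA hh hparA, sub_zero, hω, sq_abs]
  have hWcase : (∅ : Finset T) = ∅ ∨ True := Or.inl rfl
  have hwseg : IsSeg (icc δ (top δ)) := isSeg_icc _ _
  have hwprop : icc δ (top δ) = ∅ ∨ ∃ δ' ∈ S, IsCut A δ' ∧ ∀ γ ∈ icc δ (top δ), δ' ≤ γ :=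
    Or.inr ⟨δ, hδS, hcut, fun γ hγ => (mem_icc.mp hγ).1⟩
  have hS₁S : S₁ ⊆ S := filter_subset _ _
  have hsq : θ ^ 2 * (sg k S₂) ^ 2 ≤ θ ^ 2 * (sg h S₂) ^ 2 :=
    mul_le_mul_of_nonneg_left (sq_le_sq.mpr hbound) (by positivity)
  by_cases hcase1 : 0 ≤ ν δ * sg g S₁
  · -- right sign
    refine ⟨S₁, ∅, _, hseg₁, isSeg_empty, hwseg, hS₁S, by simp, by simp, hwprop, ?_⟩
    rw [hmain, hW, sg_empty]
    have h1 := key_ineq_good hνt hb1 hcase1 hθ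
    nlinarith [mul_nonneg (sq_nonneg θ) (sq_nonneg ω)]
  by_cases hcase2 : |sg g S₁| < θ * ω
  · -- small
    refine ⟨S₁, ∅, _, hseg₁, isSeg_empty, hwseg, hS₁S, by simp, by simp, hwprop, ?_⟩
    rw [hmain, hW, sg_empty]
    have h1 := key_ineq_small hcase2 hb2 hθ
    nlinarith
  -- wrong sign and large
  push Not at hcase1 hcase2
  have hcase3 : ν δ * sg g (ico b δ) ≤ -(θ * ω) := by
    rw [← heq₁']
    rcases hνt with h | h <;> rw [h] at hcase1 ⊢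
    · have h1 : sg g S₁ < 0 := by linarith
      rw [abs_of_neg h1] at hcase2
      linarith
    · have h1 : 0 < sg g S₁ := by linarith
      rw [abs_of_pos h1] at hcase2
      linarith
  have hcase1' : ν δ * sg g (ico b δ) < 0 := by
    rw [← heq₁']; exact hcase1
  obtain ⟨c, hbc, hcδ, hcq⟩ := hν2 δ b hbδ hcase1' hcase3
  have hsum : sg g S₁ = sg g (ico b c) + sg g (ico c δ) := by
    rw [heq₁']
    exact sg_ico_split g hbc.le hcδ.le
  refine ⟨ico b c, ico c δ, _, isSeg_ico _ _, isSeg_ico _ _, hwseg, ?_, ?_,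
    disjoint_ico_ico _ _ _, hwprop, ?_⟩
  · intro x hx
    apply hS₁S
    rw [heq₁', mem_ico]
    have := mem_ico.mp hx
    exact ⟨this.1, this.2.trans hcδ⟩
  · intro x hx
    apply hS₁S
    rw [heq₁', mem_ico]
    have := mem_ico.mp hx
    exact ⟨hbc.le.trans this.1, this.2⟩
  · rw [hmain, hW]
    have h1 := key_ineq_large hνt hb1 hcase1 hb2 hθ hsum hcq
    nlinarith [mul_nonneg (sq_nonneg θ) (sq_nonneg ω)]

/-- The splitting lemma. -/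
theorem split_main {A : Finset T} (hA : IsLowerF A) (hroot : root ∈ A) {g h : T →₀ ℝ}
    (hg : ∀ γ, γ ∉ A → g γ = 0) (hh : ∀ γ ∈ A, h γ = 0) {θ : ℝ} (hθ : 0 < θ) :
    ∃ h₁ h₂ : T →₀ ℝ, h = h₁ - h₂ ∧ (∀ γ ∈ A, h₁ γ = 0) ∧ (∀ γ ∈ A, h₂ γ = 0) ∧
      ‖h₁‖ ≤ ‖h‖ ∧ ‖h₂‖ ≤ ‖h‖ ∧
      ‖g + θ • h₁‖ ^ 2 ≤ ‖g‖ ^ 2 + 3 * θ ^ 2 * ‖h‖ ^ 2 ∧
      ‖g + θ • h₂‖ ^ 2 ≤ ‖g‖ ^ 2 + 3 * θ ^ 2 * ‖h‖ ^ 2 := by
  choose top htop1 htop2 using exists_top h
  choose ν hν1 hν2 using fun δ => exists_sign g δ (θ * |pot h (top δ)|)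
  let ε : T → ℝ := fun γ => ν (cut A γ)
  have hε1 : ∀ γ, ε γ = 1 ∨ ε γ = -1 := fun γ => hν1 _
  have hε2 : ∀ γ γ', γ ∉ A → γ ≤ γ' → ε γ = ε γ' := by
    intro γ γ' hγ hle
    obtain ⟨δ, hδ, hδγ⟩ := exists_cut A hγ
    show ν (cut A γ) = ν (cut A γ')
    rw [cut_eq hδ hδγ, cut_eq hδ (hδγ.trans hle)]
  have hτ1 : (-1 : ℝ) = 1 ∨ (-1 : ℝ) = -1 := Or.inr rfl
  have hτ2 : (1 : ℝ) = 1 ∨ (1 : ℝ) = -1 := Or.inl rfl
  obtain ⟨k₁, hk₁⟩ := exists_clip hA hh hroot hε1 hε2 hτ1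
  obtain ⟨k₂, hk₂⟩ := exists_clip hA hh hroot hε1 hε2 hτ2
  have hgen : ∀ {τ : ℝ} (_ : τ = 1 ∨ τ = -1) {k : T →₀ ℝ}
      (_ : ∀ γ, k γ = Psi A h ε τ γ - Psi A h ε τ (par γ)),
      ‖g + θ • k‖ ^ 2 ≤ ‖g‖ ^ 2 + 3 * θ ^ 2 * ‖h‖ ^ 2 := by
    intro τ hτ k hk
    have hC : 0 ≤ ‖g‖ ^ 2 + 3 * θ ^ 2 * ‖h‖ ^ 2 := by positivity
    have h0 : ‖g + θ • k‖ ≤ Real.sqrt (‖g‖ ^ 2 + 3 * θ ^ 2 * ‖h‖ ^ 2) := by
      apply norm_le_of (Real.sqrt_nonneg _)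
      intro 𝒮 h𝒮
      rw [Real.sq_sqrt hC]
      choose! P Q W hP hQ hW hPS hQS hPQ hWp hmain using
        fun S (hS : S ∈ 𝒮) => segment_bound hA hg hh hroot hθ htop1 htop2 hν1 hν2 rfl hε1 hε2 hτ hk
          S (h𝒮.seg S hS)
      have hF1 := fam_two (s := 𝒮) hP hQ hPQ hPS hQS h𝒮.disj g
      have hF2 : Fam 𝒮 (fun S => S.filter (· ∉ A)) :=
        ⟨fun S hS => isSeg_filter (conv_not_mem hA) (h𝒮.seg S hS), fun i hi j hj hij => by
          have := h𝒮.disj i hi j hj hij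
          simp only [id] at this
          exact disjoint_of_subset_left (filter_subset _ _)
            (disjoint_of_subset_right (filter_subset _ _) this)⟩
      have hF3 : Fam 𝒮 W := by
        refine ⟨hW, ?_⟩
        intro S hS S' hS' hne
        rcases hWp S hS with h1 | ⟨δ, hδ, hcut, hall⟩
        · rw [h1]; exact disjoint_empty_left _
        rcases hWp S' hS' with h2 | ⟨δ', hδ', hcut', hall'⟩
        · rw [h2]; exact disjoint_empty_right _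
        rw [disjoint_left]
        intro x hx hx'
        have heq : δ = δ' := cut_unique hcut hcut' (hall x hx) (hall' x hx')
        subst heq
        have hd := h𝒮.disj S hS S' hS' hne
        simp only [id] at hd
        exact (disjoint_left.mp hd) hδ hδ'
      have hS2 := fam_le' hF2 h
      have hS3 := fam_le' hF3 h
      calc ∑ S ∈ 𝒮, (sg (g + θ • k) (id S)) ^ 2
          ≤ ∑ S ∈ 𝒮, (((sg g (P S)) ^ 2 + (sg g (Q S)) ^ 2)
              + θ ^ 2 * (sg h (S.filter (· ∉ A))) ^ 2 + 2 * θ ^ 2 * (sg h (W S)) ^ 2) := by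
            apply sum_le_sum
            intro S hS
            exact hmain S hS
        _ = ∑ S ∈ 𝒮, ((sg g (P S)) ^ 2 + (sg g (Q S)) ^ 2)
              + θ ^ 2 * ∑ S ∈ 𝒮, (sg h (S.filter (· ∉ A))) ^ 2
              + 2 * θ ^ 2 * ∑ S ∈ 𝒮, (sg h (W S)) ^ 2 := by
            rw [sum_add_distrib, sum_add_distrib, mul_sum, mul_sum]
        _ ≤ ‖g‖ ^ 2 + θ ^ 2 * ‖h‖ ^ 2 + 2 * θ ^ 2 * ‖h‖ ^ 2 := by
            have h1 : θ ^ 2 * ∑ S ∈ 𝒮, (sg h (S.filter (· ∉ A))) ^ 2 ≤ θ ^ 2 * ‖h‖ ^ 2 :=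
              mul_le_mul_of_nonneg_left hS2 (by positivity)
            have h2 : 2 * θ ^ 2 * ∑ S ∈ 𝒮, (sg h (W S)) ^ 2 ≤ 2 * θ ^ 2 * ‖h‖ ^ 2 :=
              mul_le_mul_of_nonneg_left hS3 (by positivity)
            linarith
        _ = ‖g‖ ^ 2 + 3 * θ ^ 2 * ‖h‖ ^ 2 := by ring
    calc ‖g + θ • k‖ ^ 2 ≤ (Real.sqrt (‖g‖ ^ 2 + 3 * θ ^ 2 * ‖h‖ ^ 2)) ^ 2 := by gcongr
      _ = _ := Real.sq_sqrt hC
  refine ⟨k₁, k₂, ?_, fun γ hγ => k_mem hA hk₁ hγ, fun γ hγ => k_mem hA hk₂ hγ,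
    norm_clip_le hA hh hroot hε1 hε2 hτ1 hk₁, norm_clip_le hA hh hroot hε1 hε2 hτ2 hk₂,
    hgen hτ1 hk₁, hgen hτ2 hk₂⟩
  ext γ
  have hdiff := Psi_sub_self hA hh hε1 γ
  have hdiff' := Psi_sub_self hA hh hε1 (par γ)
  by_cases hr : γ = root
  · subst hr
    rw [hh _ hroot, Finsupp.sub_apply, k_mem hA hk₁ hroot, k_mem hA hk₂ hroot, sub_zero]
  · rw [Finsupp.sub_apply, hk₁, hk₂, ← pot_sub_par h hr, ← hdiff, ← hdiff']
    ring

end Vale.Agent.Lib.P069
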