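import Vale.Agent.Lib.P069.Defs
import Vale.Agent.Lib.P069.Split
import Vale.Agent.Lib.P069.Refl

/-!
# The norm of the dual of the James tree space is asymptotically midpoint uniformly convex
-/

namespace Vale.Agent.Lib.P069

open Finset RTree
open scoped Classical

variable {T : Type} [RTree T]

set_option linter.unusedSectionVars false

/-- the closed subspace of functionals vanishing at all nodes of a finite set -/
noncomputable def coordKer (A : Finset T) : Submodule ℝ (StrongDual ℝ (T →₀ ℝ)) :=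
  LinearMap.ker (LinearMap.pi (fun γ : A =>
    ((ContinuousLinearMap.apply ℝ ℝ (Finsupp.single (γ : T) (1 : ℝ))) :
      StrongDual ℝ (T →₀ ℝ) →L[ℝ] ℝ).toLinearMap))

lemma mem_coordKer {A : Finset T} {y : StrongDual ℝ (T →₀ ℝ)} :
    y ∈ coordKer A ↔ ∀ γ ∈ A, y (Finsupp.single γ 1) = 0 := by
  simp only [coordKer, LinearMap.mem_ker]
  constructor
  · intro h γ hγ
    have := congrFun h ⟨γ, hγ⟩
    simpa using this
  · intro h
    funext γ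
    simpa using h γ γ.2

lemma isCof_coordKer (A : Finset T) : IsCof (coordKer A) := by
  constructor
  · have : ((coordKer A : Submodule ℝ (StrongDual ℝ (T →₀ ℝ))) : Set (StrongDual ℝ (T →₀ ℝ)))
        = ⋂ γ ∈ A, {y | y (Finsupp.single γ (1 : ℝ)) = 0} := by
      ext y
      simp [mem_coordKer]
    rw [this]
    apply isClosed_biInter
    intro γ _
    exact isClosed_eq
      ((ContinuousLinearMap.apply ℝ ℝ (Finsupp.single γ (1 : ℝ))).continuous) continuous_const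
  · let φ := LinearMap.pi (fun γ : A =>
      ((ContinuousLinearMap.apply ℝ ℝ (Finsupp.single (γ : T) (1 : ℝ))) :
        StrongDual ℝ (T →₀ ℝ) →L[ℝ] ℝ).toLinearMap)
    have h : FiniteDimensional ℝ (LinearMap.range φ) := inferInstance
    exact LinearEquiv.finiteDimensional (φ.quotKerEquivRange).symm

lemma num1 {θ t a b c : ℝ} (hθ : 0 < θ) (hθ1 : θ ≤ 1) (hθt : 24 * θ ≤ t)
    (ha : 1 - θ ^ 2 / 2 ≤ a) (hb : -(θ ^ 2 / 2) ≤ b) (hc : 1 / 4 ≤ c) :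
    1 + 5 * θ ^ 2 ≤ a + θ * b + t * θ * c := by
  have h1 : t * θ * (1 / 4) ≤ t * θ * c := by
    apply mul_le_mul_of_nonneg_left hc
    have : 0 < t := by linarith
    positivity
  have h2 : 24 * θ * θ ≤ t * θ := mul_le_mul_of_nonneg_right hθt hθ.le
  have h3 : θ * (-(θ ^ 2 / 2)) ≤ θ * b := mul_le_mul_of_nonneg_left hb hθ.le
  have h4 : θ * (θ ^ 2 / 2) ≤ 1 * (θ ^ 2 / 2) :=
    mul_le_mul_of_nonneg_right hθ1 (by positivity)
  have h5 : θ * (-(θ ^ 2 / 2)) = -(θ * (θ ^ 2 / 2)) := by ring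
  have h6 : 24 * θ * θ = 24 * θ ^ 2 := by ring
  linarith

lemma num2 {L U s : ℝ} (hs : 0 ≤ s) (hs1 : s ≤ 1) (hL : 0 ≤ L) (hU : U ≤ 1 + 3 / 2 * s)
    (hU0 : 0 ≤ U) (hv : 1 + 5 * s ≤ L * U) : 1 + s ≤ L := by
  by_contra hcon
  push Not at hcon
  have h1 : L * U ≤ (1 + s) * (1 + 3 / 2 * s) :=
    mul_le_mul hcon.le hU hU0 (by positivity)
  have h2 : s * s ≤ 1 * s := mul_le_mul_of_nonneg_right hs1 hs
  nlinarith

lemma num3 {a s : ℝ} (hs : 0 ≤ s) (hU : a ^ 2 ≤ 1 + 3 * s) : a ≤ 1 + 3 / 2 * s := by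
  have h2 : (1 + 3 * s) ≤ (1 + 3 / 2 * s) ^ 2 := by nlinarith [sq_nonneg s]
  exact (abs_le_of_sq_le_sq' (hU.trans h2) (by positivity)).2

lemma amuc_step {A A₁ : Finset T} {x y : StrongDual ℝ (T →₀ ℝ)} {g k h : T →₀ ℝ}
    {θ t σ : ℝ} (hθpos : 0 < θ) (hθ1 : θ ≤ 1) (hθt : 24 * θ ≤ t)
    (hsubA : A₁ ⊆ A) (hA₁' : ∀ g : T →₀ ℝ, (∀ γ ∈ A₁, g γ = 0) → |x g| ≤ θ ^ 2 / 2 * ‖g‖)
    (hg1 : ‖g‖ ≤ 1) (hg2 : 1 - θ ^ 2 / 2 ≤ x g) (hyg : y g = 0) (hh1 : ‖h‖ ≤ 1)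
    (hkA : ∀ γ ∈ A, k γ = 0) (hkn : ‖k‖ ≤ ‖h‖)
    (hb : ‖g + θ • k‖ ^ 2 ≤ ‖g‖ ^ 2 + 3 * θ ^ 2 * ‖h‖ ^ 2)
    (hσk : 1 / 4 ≤ σ * y k) :
    1 + θ ^ 2 ≤ ‖x + (σ * t) • y‖ := by
  have hxk : -(θ ^ 2 / 2) ≤ x k := by
    have h1 := hA₁' k (fun γ hγ => hkA γ (hsubA hγ))
    have h2 : ‖k‖ ≤ 1 := hkn.trans hh1
    have h3 : θ ^ 2 / 2 * ‖k‖ ≤ θ ^ 2 / 2 * 1 := by gcongr
    have h4 := (abs_le.mp (h1.trans h3)).1
    linarith
  set u := g + θ • k with hu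
  have hs : 0 ≤ θ ^ 2 := by positivity
  have hs1 : θ ^ 2 ≤ 1 := by
    have := mul_le_mul hθ1 hθ1 hθpos.le zero_le_one
    nlinarith
  have hunorm : ‖u‖ ≤ 1 + 3 / 2 * θ ^ 2 := by
    have h1 : ‖u‖ ^ 2 ≤ 1 + 3 * θ ^ 2 := by
      refine hb.trans ?_
      have h2 : ‖g‖ ^ 2 ≤ 1 ^ 2 := pow_le_pow_left₀ (norm_nonneg _) hg1 2
      have h3 : ‖h‖ ^ 2 ≤ 1 ^ 2 := pow_le_pow_left₀ (norm_nonneg _) hh1 2
      have h4 : 3 * θ ^ 2 * ‖h‖ ^ 2 ≤ 3 * θ ^ 2 * 1 ^ 2 :=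
        mul_le_mul_of_nonneg_left h3 (by positivity)
      linarith
    exact num3 hs h1
  have hval : 1 + 5 * θ ^ 2 ≤ (x + (σ * t) • y) u := by
    have h1 : (x + (σ * t) • y) u = x g + θ * x k + t * θ * (σ * y k) := by
      simp only [add_apply, smul_apply, hu, map_add, map_smul, smul_eq_mul, hyg]
      ring
    rw [h1]
    exact num1 hθpos hθ1 hθt hg2 hxk hσk
  have hle : (x + (σ * t) • y) u ≤ ‖x + (σ * t) • y‖ * ‖u‖ :=
    (le_abs_self _).trans ((x + (σ * t) • y).le_opNorm u)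
  exact num2 hs hs1 (norm_nonneg _) hunorm (norm_nonneg _) (hval.trans hle)

lemma exists_norming (x : StrongDual ℝ (T →₀ ℝ)) {r : ℝ} (hr : r < ‖x‖) :
    ∃ g : T →₀ ℝ, ‖g‖ ≤ 1 ∧ r ≤ x g := by
  obtain ⟨g, hg1, hg2⟩ := x.exists_lt_apply_of_lt_opNorm hr
  rw [Real.norm_eq_abs] at hg2
  rcases le_total 0 (x g) with h | h
  · refine ⟨g, hg1.le, ?_⟩
    rw [abs_of_nonneg h] at hg2
    exact hg2.le
  · refine ⟨-g, by rw [norm_neg]; exact hg1.le, ?_⟩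
    rw [abs_of_nonpos h] at hg2
    rw [map_neg]
    exact hg2.le

/-- the midpoint uniform convexity of the norm -/
theorem amuc : IsAMUC (fun x : StrongDual ℝ (T →₀ ℝ) => ‖x‖) := by
  intro t ht
  set θ : ℝ := min (t / 24) 1 with hθdef
  have hθpos : 0 < θ := lt_min (by positivity) one_pos
  have hθ1 : θ ≤ 1 := min_le_right _ _
  have hθt : 24 * θ ≤ t := by
    have : θ ≤ t / 24 := min_le_left _ _
    linarith
  refine ⟨θ ^ 2, by positivity, ?_⟩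
  intro x hx
  simp only at hx
  have hη : 0 < θ ^ 2 / 2 := by positivity
  -- a nearly norming element for `x`
  obtain ⟨g, hg1, hg2⟩ : ∃ g : T →₀ ℝ, ‖g‖ ≤ 1 ∧ 1 - θ ^ 2 / 2 ≤ x g :=
    exists_norming x (by rw [hx]; linarith)
  obtain ⟨A₁, hA₁, -, hA₁'⟩ := tail_small x hη
  let A : Finset T := A₁ ∪ lowClosure g.support
  have hA : IsLowerF A := isLowerF_union hA₁ (lowClosure_lower _)
  have hroot : (root : T) ∈ A := mem_union.mpr (Or.inr (root_mem_lowClosure _))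
  have hgA : ∀ γ, γ ∉ A → g γ = 0 := by
    intro γ hγ
    by_contra hne
    apply hγ
    exact mem_union.mpr (Or.inr (subset_lowClosure _ (Finsupp.mem_support_iff.mpr hne)))
  refine ⟨coordKer A, isCof_coordKer A, ?_⟩
  intro y hy hy1
  simp only at hy1 ⊢
  have hyA := mem_coordKer.mp hy
  -- `y` vanishes on functions supported on `A`
  have hyzero : ∀ u : T →₀ ℝ, (∀ γ, γ ∉ A → u γ = 0) → y u = 0 := by
    intro u hu
    rw [apply_eq_sum y u hu]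
    apply sum_eq_zero
    intro γ hγ
    rw [hyA γ hγ, mul_zero]
  -- a nearly norming element for `y`
  obtain ⟨h₀, hh₀1, hh₀2⟩ : ∃ h₀ : T →₀ ℝ, ‖h₀‖ ≤ 1 ∧ 1 / 2 ≤ y h₀ :=
    exists_norming y (by rw [hy1]; norm_num)
  let h : T →₀ ℝ := h₀.filter (· ∉ A)
  have hh1 : ‖h‖ ≤ 1 := (norm_filter_le (conv_not_mem hA) h₀).trans hh₀1
  have hhA : ∀ γ ∈ A, h γ = 0 := by
    intro γ hγ
    simp [h, hγ]
  have hyh : y h = y h₀ := by
    have hsplit := Finsupp.filter_add_filter_not h₀ (· ∉ A)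
    have h2 : y (h₀.filter (fun γ => ¬ γ ∉ A)) = 0 := by
      apply hyzero
      intro γ hγ
      simp [hγ]
    have h3 := congrArg y hsplit
    rw [map_add, h2, add_zero] at h3
    exact h3
  obtain ⟨h₁, h₂, hsub, hh₁A, hh₂A, hh₁n, hh₂n, hb₁, hb₂⟩ :=
    split_main hA hroot hgA hhA hθpos
  have hysplit : y h = y h₁ - y h₂ := by
    rw [hsub, map_sub]
  have hyg : y g = 0 := hyzero g hgA
  have hsum : 1 / 2 ≤ y h₁ - y h₂ := by
    rw [← hysplit, hyh]; exact hh₀2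
  rcases le_or_gt (1 / 4) (y h₁) with hcase | hcase
  · have h1 := amuc_step (σ := 1) hθpos hθ1 hθt subset_union_left hA₁' hg1 hg2 hyg hh1
      hh₁A hh₁n hb₁ (by rw [one_mul]; exact hcase)
    rw [one_mul] at h1
    exact h1.trans (le_max_left _ _)
  · have hcase' : 1 / 4 ≤ (-1) * y h₂ := by linarith
    have h1 := amuc_step (σ := -1) hθpos hθ1 hθt subset_union_left hA₁' hg1 hg2 hyg hh1
      hh₂A hh₂n hb₂ hcase'
    have h2 : x + (-1 * t) • y = x - t • y := by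
      ext u
      simp only [add_apply, sub_apply, smul_apply, smul_eq_mul]
      ring
    rw [h2] at h1
    exact h1.trans (le_max_right _ _)

end Vale.Agent.Lib.P069
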