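import Mathlib

/-!
# Asymptotic uniform convexity and asymptotic midpoint uniform convexity

For a function `N` on a real normed space `X` (in practice a norm on `X`), these are the
conditions that the moduli from the problem statement are positive at every `t > 0`,
with the infimum, supremum and infimum unfolded into quantifiers.
-/

namespace Vale.Agent.Lib.P069

variable {X : Type} [NormedAddCommGroup X] [NormedSpace ℝ X]

/-- `F` is a member of `cof(X)`: a closed linear subspace of finite codimension. -/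
def IsCof (F : Submodule ℝ X) : Prop :=
  IsClosed (F : Set X) ∧ FiniteDimensional ℝ (X ⧸ F)

/-- `N` is asymptotically uniformly convex: for every `t > 0` the modulus
`inf_{N x = 1} sup_{F ∈ cof X} inf_{y ∈ F, N y = 1} (N (x + t y) - 1)` is positive. -/
def IsAUC (N : X → ℝ) : Prop :=
  ∀ t : ℝ, 0 < t → ∃ δ : ℝ, 0 < δ ∧ ∀ x : X, N x = 1 →
    ∃ F : Submodule ℝ X, IsCof F ∧ ∀ y ∈ F, N y = 1 → 1 + δ ≤ N (x + t • y)

/-- `N` is asymptotically midpoint uniformly convex: for every `t > 0` the modulus
`inf_{N x = 1} sup_{F ∈ cof X} inf_{y ∈ F, N y = 1} (max (N (x + t y)) (N (x - t y)) - 1)`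
is positive. -/
def IsAMUC (N : X → ℝ) : Prop :=
  ∀ t : ℝ, 0 < t → ∃ δ : ℝ, 0 < δ ∧ ∀ x : X, N x = 1 →
    ∃ F : Submodule ℝ X, IsCof F ∧ ∀ y ∈ F, N y = 1 → 1 + δ ≤ max (N (x + t • y)) (N (x - t • y))

end Vale.Agent.Lib.P069
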