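import Vale.Agent.Lib.P069.Ops

/-!
# The dual space: coordinate functionals and smallness of tails
-/

namespace Vale.Agent.Lib.P069

open Finset RTree Filter Topology
open scoped Classical

variable {T : Type} [RTree T]

set_option linter.unusedSectionVars false

/-- the coordinate functional at a node -/
noncomputable def ev (γ : T) : StrongDual ℝ (T →₀ ℝ) :=
  LinearMap.mkContinuous (Finsupp.lapply γ) 1 (fun g => by
    simpa using abs_apply_le_norm g γ)

lemma ev_apply (γ : T) (g : T →₀ ℝ) : ev γ g = g γ := rfl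

/-- the sum of the coordinate functionals over a finite set -/
noncomputable def segF (S : Finset T) : StrongDual ℝ (T →₀ ℝ) := ∑ γ ∈ S, ev γ

lemma segF_apply (S : Finset T) (g : T →₀ ℝ) : segF S g = sg g S := by
  simp [segF, sg, ev_apply]

lemma norm_segF_le {S : Finset T} (hS : IsSeg S) : ‖segF S‖ ≤ 1 := by
  apply ContinuousLinearMap.opNorm_le_bound _ zero_le_one
  intro g
  rw [segF_apply, one_mul, Real.norm_eq_abs]
  exact abs_sg_le_norm g hS

lemma norm_single_le (b : T) : ‖Finsupp.single b (1 : ℝ)‖ ≤ 1 := by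
  have h : ‖Finsupp.single b (1 : ℝ)‖ ^ 2 ≤ 1 := by
    apply norm_sq_le_of
    intro 𝒮 h𝒮
    have hval : ∀ S : Finset T, sg (Finsupp.single b (1 : ℝ)) S = if b ∈ S then 1 else 0 := by
      intro S
      simp only [sg, Finsupp.single_apply]
      rw [sum_ite_eq]
    have h1 := sum_disj_le (s := 𝒮) (P := id) h𝒮.disj
      (fun γ => (Finsupp.single b (1 : ℝ)) γ) (by
        intro γ
        simp only [Finsupp.single_apply]
        split_ifs <;> norm_num) {b} (by
        intro i _ γ _ hne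
        simp only [Finsupp.single_apply] at hne
        by_cases hb : b = γ
        · simp [hb]
        · simp [hb] at hne)
    simp only [sum_singleton, Finsupp.single_eq_same] at h1
    refine le_trans (sum_le_sum ?_) h1
    intro S _
    have h2 : ∑ γ ∈ id S, (Finsupp.single b (1 : ℝ)) γ = sg (Finsupp.single b (1 : ℝ)) S := rfl
    rw [h2, hval]
    split_ifs <;> norm_num
  nlinarith [norm_nonneg (Finsupp.single b (1 : ℝ))]

lemma one_le_norm_ev (b : T) : 1 ≤ ‖ev b‖ := by
  have h := (ev b).le_opNorm (Finsupp.single b (1 : ℝ))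
  rw [ev_apply, Finsupp.single_eq_same, norm_one] at h
  have h2 := norm_single_le b
  have h3 := norm_nonneg (ev b)
  nlinarith [mul_le_mul_of_nonneg_left h2 h3]

lemma apply_eq_sum (x : StrongDual ℝ (T →₀ ℝ)) (g : T →₀ ℝ) {D : Finset T}
    (hD : ∀ γ, γ ∉ D → g γ = 0) : x g = ∑ γ ∈ D, g γ * x (Finsupp.single γ 1) := by
  have h1 : g = ∑ γ ∈ D, (g γ) • Finsupp.single γ (1 : ℝ) := by
    ext c
    rw [Finsupp.finsetSum_apply]
    simp only [Finsupp.smul_apply, Finsupp.single_apply, smul_eq_mul, mul_ite, mul_one, mul_zero]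
    rw [sum_ite_eq']
    by_cases hc : c ∈ D
    · simp [hc]
    · simp [hc, hD c hc]
  conv_lhs => rw [h1]
  rw [map_sum]
  apply sum_congr rfl
  intro γ _
  rw [map_smul, smul_eq_mul]

lemma sq_le_opNorm_sq (x : StrongDual ℝ (T →₀ ℝ)) (g : T →₀ ℝ) : (x g) ^ 2 ≤ ‖x‖ ^ 2 * ‖g‖ ^ 2 := by
  have h := x.le_opNorm g
  rw [Real.norm_eq_abs] at h
  rw [← sq_abs, ← mul_pow]
  gcongr

/-! ### Levels -/

/-- nodes outside the root with level at least `K` -/
def Hi (K : ℕ) (γ : T) : Prop := γ ≠ root ∧ K ≤ lev γ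

lemma lev_eq_of_comparable {a b : T} (ha : a ≠ root) (hb : b ≠ root) (h : a ≤ b ∨ b ≤ a) :
    lev a = lev b := by
  rcases h with h | h
  · exact lev_eq_of_le h ha
  · exact (lev_eq_of_le h hb).symm

lemma eq_root_of_le_root {a : T} (h : a ≤ root) : a = root :=
  le_antisymm h (root_le a)

lemma conv_hi (K : ℕ) : Conv (Hi K : T → Prop) := by
  rintro a c b ⟨ha, ha'⟩ _ h1 _
  have hb : b ≠ root := by
    rintro rfl
    exact ha (eq_root_of_le_root h1)
  exact ⟨hb, by rw [← lev_eq_of_le h1 ha]; exact ha'⟩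

lemma conv_lo (K : ℕ) : Conv (fun γ : T => ¬ Hi K γ) := by
  intro a c b _ hc _ h2 hb
  apply hc
  have hcr : c ≠ root := by
    rintro rfl
    exact hb.1 (eq_root_of_le_root h2)
  exact ⟨hcr, by rw [← lev_eq_of_le h2 hb.1]; exact hb.2⟩

lemma orth_levels {K : ℕ} {G g : T →₀ ℝ} (hG : ∀ γ, G γ ≠ 0 → γ ≠ root ∧ lev γ < K)
    (hg : ∀ γ, g γ ≠ 0 → Hi K γ) (S : Finset T) (hS : IsSeg S) : sg G S = 0 ∨ sg g S = 0 := by
  by_cases h : ∃ γ ∈ S, Hi K γ
  · left
    obtain ⟨γ, hγ, hγ'⟩ := h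
    apply sum_eq_zero
    intro c hc
    by_contra hne
    obtain ⟨h1, h2⟩ := hG c hne
    have h3 := lev_eq_of_comparable h1 hγ'.1 (hS.1 c hc γ hγ)
    have h4 := hγ'.2
    omega
  · right
    push Not at h
    apply sum_eq_zero
    intro c hc
    by_contra hne
    exact h c hc (hg c hne)

/-- the part of a functional on high levels is small -/
lemma tail_levels (x : StrongDual ℝ (T →₀ ℝ)) {ε : ℝ} (hε : 0 < ε) :
    ∃ K : ℕ, ∀ g : T →₀ ℝ, (∀ γ, g γ ≠ 0 → Hi K γ) → |x g| ≤ ε * ‖g‖ := by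
  by_contra hcon
  push Not at hcon
  have hblock : ∀ (m K : ℕ), ∃ G : T →₀ ℝ, (∀ γ, G γ ≠ 0 → Hi K γ) ∧ ‖G‖ ^ 2 ≤ m ∧
      m * ε ≤ x G := by
    intro m
    induction m with
    | zero =>
      intro K
      refine ⟨0, by simp, by simp, by simp⟩
    | succ m ih =>
      intro K
      obtain ⟨G, hG1, hG2, hG3⟩ := ih K
      let K' : ℕ := max K (G.support.sup lev + 1)
      obtain ⟨g, hg1, hg2⟩ := hcon K'
      have hgpos : 0 < ‖g‖ := by
        rw [norm_pos_iff]
        rintro rfl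
        simp at hg2
      have hxne : x g ≠ 0 := by
        intro h0
        rw [h0, abs_zero] at hg2
        nlinarith
      -- normalise `g`
      let σ : ℝ := |x g| / (x g)
      have hσ : |σ| = 1 := by
        simp only [σ, abs_div, abs_abs]
        exact div_self (abs_ne_zero.mpr hxne)
      let g' : T →₀ ℝ := (σ / ‖g‖) • g
      have hg'norm : ‖g'‖ = 1 := by
        simp only [g']
        rw [norm_smul, norm_div, Real.norm_eq_abs, hσ, norm_norm]
        field_simp
      have hg'val : ε < x g' := by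
        simp only [g']
        rw [map_smul, smul_eq_mul]
        have h1 : σ / ‖g‖ * x g = |x g| / ‖g‖ := by
          simp only [σ]
          field_simp
        rw [h1, lt_div_iff₀ hgpos]
        exact hg2
      have hg'sup : ∀ γ, g' γ ≠ 0 → Hi K' γ := by
        intro γ hne
        apply hg1
        intro h0
        apply hne
        simp [g', h0]
      have hGlow : ∀ γ, G γ ≠ 0 → γ ≠ root ∧ lev γ < K' := by
        intro γ hne
        refine ⟨(hG1 γ hne).1, ?_⟩
        have h1 : γ ∈ G.support := Finsupp.mem_support_iff.mpr hne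
        have h2 : lev γ ≤ G.support.sup lev := Finset.le_sup h1
        have h3 : G.support.sup lev + 1 ≤ K' := le_max_right _ _
        omega
      refine ⟨G + g', ?_, ?_, ?_⟩
      · intro γ hne
        by_cases hGγ : G γ = 0
        · have : g' γ ≠ 0 := by
            intro h0
            apply hne
            simp [hGγ, h0]
          have h1 := hg'sup γ this
          exact ⟨h1.1, (le_max_left K _).trans h1.2⟩
        · exact hG1 γ hGγ
      · have h1 := norm_add_sq_le_of_orth (orth_levels hGlow hg'sup)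
        rw [hg'norm] at h1
        push_cast
        linarith
      · rw [map_add]
        push_cast
        linarith
  obtain ⟨m, hm⟩ := exists_nat_gt (‖x‖ ^ 2 / ε ^ 2)
  obtain ⟨G, -, hG2, hG3⟩ := hblock m 0
  have hm0 : (0 : ℝ) < m := lt_of_le_of_lt (by positivity) hm
  have h1 : (x G) ^ 2 ≤ ‖x‖ ^ 2 * m := (sq_le_opNorm_sq x G).trans (by gcongr)
  have h2 : (m * ε) ^ 2 ≤ (x G) ^ 2 := by
    apply pow_le_pow_left₀ (by positivity) hG3
  have h3 : ‖x‖ ^ 2 < m * ε ^ 2 := by
    rwa [div_lt_iff₀ (by positivity)] at hm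
  have h4 : (m * ε) ^ 2 = m * (m * ε ^ 2) := by ring
  rw [h4] at h2
  have h5 : m * ‖x‖ ^ 2 < m * (m * ε ^ 2) := mul_lt_mul_of_pos_left h3 hm0
  nlinarith

/-- nodes of low level have bounded depth -/
lemma dep_le_of_lo {K : ℕ} {γ : T} (h : ¬ Hi K γ) : dep γ ≤ K := by
  by_cases hr : γ = root
  · subst hr
    rw [dep_root]; omega
  · have h1 : lev γ < K := by
      by_contra h2
      exact h ⟨hr, not_lt.mp h2⟩
    have := dep_le_lev γ
    omega

lemma dep_injOn_seg {S : Finset T} (hS : IsSeg S) : Set.InjOn dep (S : Set T) := by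
  intro a ha b hb hab
  rcases hS.1 a ha b hb with h | h
  · rcases eq_or_lt_of_le h with h' | h'
    · exact h'
    · have := dep_lt_of_lt h'
      omega
  · rcases eq_or_lt_of_le h with h' | h'
    · exact h'.symm
    · have := dep_lt_of_lt h'
      omega

/-- in bounded depth the norm is controlled by the Hilbert norm -/
lemma norm_sq_le_of_dep {K : ℕ} {g : T →₀ ℝ} (hg : ∀ γ, g γ ≠ 0 → dep γ ≤ K) :
    ‖g‖ ^ 2 ≤ (K + 1) * ∑ γ ∈ g.support, (g γ) ^ 2 := by
  apply norm_sq_le_of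
  intro 𝒮 h𝒮
  have h1 : ∀ S ∈ 𝒮, (sg g S) ^ 2 ≤ (K + 1) * ∑ γ ∈ S, (g γ) ^ 2 := by
    intro S hS
    have hseg := h𝒮.seg S hS
    have h2 : sg g S = ∑ γ ∈ S.filter (fun γ => dep γ ≤ K), g γ := by
      simp only [sg]
      rw [sum_filter]
      apply sum_congr rfl
      intro c _
      by_cases hc : dep c ≤ K
      · simp [hc]
      · simp only [hc, if_false]
        by_contra hne
        exact hc (hg c hne)
    have h3 : (S.filter (fun γ => dep γ ≤ K)).card ≤ K + 1 := by
      have := card_le_card_of_injOn (s := S.filter (fun γ => dep γ ≤ K)) (t := range (K + 1)) dep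
        (by
          intro c hc
          have := (mem_filter.mp hc).2
          simp only [coe_range, Set.mem_Iio]
          omega)
        (by
          intro a ha b hb hab
          exact dep_injOn_seg hseg (mem_filter.mp ha).1 (mem_filter.mp hb).1 hab)
      simpa using this
    rw [h2]
    have h4 := sq_sum_le_card_mul_sum_sq (s := S.filter (fun γ => dep γ ≤ K)) (f := fun γ => g γ)
    refine h4.trans ?_
    have h5 : ((S.filter (fun γ => dep γ ≤ K)).card : ℝ) ≤ K + 1 := by exact_mod_cast h3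
    have h6 : ∑ γ ∈ S.filter (fun γ => dep γ ≤ K), (g γ) ^ 2 ≤ ∑ γ ∈ S, (g γ) ^ 2 :=
      sum_le_sum_of_subset_of_nonneg (filter_subset _ _) (fun _ _ _ => sq_nonneg _)
    exact mul_le_mul h5 h6 (sum_nonneg (fun _ _ => sq_nonneg _)) (by positivity)
  have h2 := sum_disj_le (s := 𝒮) (P := id) h𝒮.disj (fun γ => (g γ) ^ 2) (fun _ => sq_nonneg _)
    g.support (by
      intro i _ γ _ hne
      apply Finsupp.mem_support_iff.mpr
      intro h0
      apply hne
      simp [h0])
  calc ∑ S ∈ 𝒮, (sg g S) ^ 2 ≤ ∑ S ∈ 𝒮, (K + 1) * ∑ γ ∈ S, (g γ) ^ 2 := sum_le_sum h1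
    _ = (K + 1) * ∑ S ∈ 𝒮, ∑ γ ∈ id S, (g γ) ^ 2 := by rw [mul_sum]; rfl
    _ ≤ _ := mul_le_mul_of_nonneg_left h2 (by positivity)

/-- coordinates of a functional on low levels are square summable -/
lemma coord_sq_le (x : StrongDual ℝ (T →₀ ℝ)) (K : ℕ) (B : Finset T) (hB : ∀ γ ∈ B, ¬ Hi K γ) :
    ∑ γ ∈ B, (x (Finsupp.single γ 1)) ^ 2 ≤ (K + 1) * ‖x‖ ^ 2 := by
  set s := ∑ γ ∈ B, (x (Finsupp.single γ 1)) ^ 2 with hs
  have hs0 : 0 ≤ s := sum_nonneg (fun _ _ => sq_nonneg _)
  let g : T →₀ ℝ := Finsupp.onFinset B (fun γ => if γ ∈ B then x (Finsupp.single γ 1) else 0) (by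
    intro γ hne
    by_contra hγ
    simp [hγ] at hne)
  have hgval : ∀ γ, g γ = if γ ∈ B then x (Finsupp.single γ 1) else 0 := fun γ => rfl
  have hgoff : ∀ γ, γ ∉ B → g γ = 0 := by
    intro γ hγ
    simp [hgval, hγ]
  have hxg : x g = s := by
    rw [apply_eq_sum x g hgoff, hs]
    apply sum_congr rfl
    intro γ hγ
    rw [hgval, if_pos hγ]
    ring
  have hnorm : ‖g‖ ^ 2 ≤ (K + 1) * s := by
    have h1 := norm_sq_le_of_dep (K := K) (g := g) (by
      intro γ hne
      apply dep_le_of_lo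
      apply hB γ
      by_contra hγ
      exact hne (hgoff γ hγ))
    refine h1.trans ?_
    apply mul_le_mul_of_nonneg_left _ (by positivity)
    rw [hs]
    have h2 : ∀ γ ∈ g.support, γ ∈ B := by
      intro γ hγ
      by_contra hγ'
      exact (Finsupp.mem_support_iff.mp hγ) (hgoff γ hγ')
    calc ∑ γ ∈ g.support, (g γ) ^ 2 ≤ ∑ γ ∈ B, (g γ) ^ 2 :=
          sum_le_sum_of_subset_of_nonneg h2 (fun _ _ _ => sq_nonneg _)
      _ = ∑ γ ∈ B, (x (Finsupp.single γ 1)) ^ 2 := by
          apply sum_congr rfl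
          intro γ hγ
          rw [hgval, if_pos hγ]
  have h3 : s ^ 2 ≤ ‖x‖ ^ 2 * ((K + 1) * s) := by
    rw [← hxg] at hnorm ⊢
    refine (sq_le_opNorm_sq x g).trans ?_
    gcongr
  by_cases hs1 : s = 0
  · rw [hs1]; positivity
  · have hspos : 0 < s := lt_of_le_of_ne hs0 (Ne.symm hs1)
    have h4 : s * s ≤ ((K + 1) * ‖x‖ ^ 2) * s := by nlinarith
    exact le_of_mul_le_mul_right h4 hspos

/-- tails of functionals are small -/
theorem tail_small (x : StrongDual ℝ (T →₀ ℝ)) {ε : ℝ} (hε : 0 < ε) :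
    ∃ A : Finset T, IsLowerF A ∧ root ∈ A ∧
      ∀ g : T →₀ ℝ, (∀ γ ∈ A, g γ = 0) → |x g| ≤ ε * ‖g‖ := by
  obtain ⟨K, hK⟩ := tail_levels x (half_pos hε)
  -- square summability on low levels
  let φ : T → ℝ := fun γ => if Hi K γ then 0 else (x (Finsupp.single γ 1)) ^ 2
  have hφ0 : ∀ γ, 0 ≤ φ γ := by
    intro γ
    simp only [φ]
    split_ifs
    · exact le_rfl
    · exact sq_nonneg _
  have hφsum : Summable φ := by
    apply summable_of_sum_le (c := (K + 1) * ‖x‖ ^ 2) hφ0
    intro u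
    have h1 : ∑ γ ∈ u, φ γ = ∑ γ ∈ u.filter (fun γ => ¬ Hi K γ), (x (Finsupp.single γ 1)) ^ 2 := by
      rw [sum_filter]
      apply sum_congr rfl
      intro γ _
      simp only [φ]
      by_cases h : Hi K γ <;> simp [h]
    rw [h1]
    exact coord_sq_le x K _ (fun γ hγ => (mem_filter.mp hγ).2)
  have hε2 : 0 < (ε / 2) ^ 2 := by positivity
  obtain ⟨B, hB⟩ := summable_iff_vanishing_norm.mp hφsum _ hε2
  refine ⟨lowClosure B, lowClosure_lower B, root_mem_lowClosure B, ?_⟩
  intro g hg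
  have hsplit : g = g.filter (Hi K) + g.filter (fun γ => ¬ Hi K γ) :=
    (Finsupp.filter_add_filter_not g (Hi K)).symm
  have hhi : |x (g.filter (Hi K))| ≤ ε / 2 * ‖g‖ := by
    refine (hK _ ?_).trans ?_
    · intro γ hne
      by_contra hγ
      exact hne (by simp [hγ])
    · apply mul_le_mul_of_nonneg_left (norm_filter_le (conv_hi K) g) (half_pos hε).le
  have hlo : |x (g.filter (fun γ => ¬ Hi K γ))| ≤ ε / 2 * ‖g‖ := by
    set g₀ := g.filter (fun γ => ¬ Hi K γ) with hg₀
    have hg₀norm : ‖g₀‖ ≤ ‖g‖ := norm_filter_le (conv_lo K) g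
    have h1 : x g₀ = ∑ γ ∈ g₀.support, g₀ γ * x (Finsupp.single γ 1) :=
      apply_eq_sum x g₀ (fun γ hγ => Finsupp.notMem_support_iff.mp hγ)
    have hsupp : ∀ γ ∈ g₀.support, ¬ Hi K γ ∧ γ ∉ B := by
      intro γ hγ
      have hne := Finsupp.mem_support_iff.mp hγ
      constructor
      · intro hH
        apply hne
        simp [hg₀, hH]
      · intro hB'
        apply hne
        have : g γ = 0 := hg γ (subset_lowClosure B hB')
        simp [hg₀, Finsupp.filter_apply, this]
    have h2 : ∑ γ ∈ g₀.support, (x (Finsupp.single γ 1)) ^ 2 ≤ (ε / 2) ^ 2 := by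
      have hd : Disjoint g₀.support B := by
        rw [disjoint_left]
        intro γ hγ
        exact (hsupp γ hγ).2
      have h3 := (hB _ hd).le
      rw [Real.norm_eq_abs, abs_of_nonneg (sum_nonneg (fun γ _ => hφ0 γ))] at h3
      refine le_trans (le_of_eq ?_) h3
      apply sum_congr rfl
      intro γ hγ
      simp [φ, (hsupp γ hγ).1]
    have h3 : ∑ γ ∈ g₀.support, (g₀ γ) ^ 2 ≤ ‖g‖ ^ 2 :=
      (sq_sum_le_norm g₀ _).trans (by gcongr)
    rw [h1]
    have h4 := sum_mul_sq_le_sq_mul_sq g₀.support (fun γ => g₀ γ) (fun γ => x (Finsupp.single γ 1))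
    have h5 : (∑ γ ∈ g₀.support, g₀ γ * x (Finsupp.single γ 1)) ^ 2 ≤ (ε / 2 * ‖g‖) ^ 2 := by
      refine h4.trans ?_
      rw [mul_pow, mul_comm]
      exact mul_le_mul h2 h3 (sum_nonneg (fun _ _ => sq_nonneg _)) (by positivity)
    exact abs_le_of_sq_le_sq' h5 (by positivity) |> fun h' => abs_le.mpr h'
  have hx : x g = x (g.filter (Hi K)) + x (g.filter (fun γ => ¬ Hi K γ)) := by
    rw [← map_add, ← hsplit]
  rw [hx]
  calc |x (g.filter (Hi K)) + x (g.filter (fun γ => ¬ Hi K γ))|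
      ≤ |x (g.filter (Hi K))| + |x (g.filter (fun γ => ¬ Hi K γ))| := abs_add_le _ _
    _ ≤ ε / 2 * ‖g‖ + ε / 2 * ‖g‖ := add_le_add hhi hlo
    _ = ε * ‖g‖ := by ring

end Vale.Agent.Lib.P069
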