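import Vale.Agent.Lib.P069.Amuc

/-!
# No equivalent norm on the dual of the James tree space is asymptotically uniformly convex
-/

namespace Vale.Agent.Lib.P069

open Finset RTree Filter Topology
open scoped Classical

set_option linter.unusedSectionVars false

/-- a weakly null sequence comes close to every closed subspace of finite codimension -/
lemma exists_near_cof {X : Type} [NormedAddCommGroup X] [NormedSpace ℝ X] {F : Submodule ℝ X}
    (hF : IsCof F) (u : ℕ → X)
    (hu : ∀ f : StrongDual ℝ X, Tendsto (fun k => f (u k)) atTop (𝓝 0)) {η : ℝ} (hη : 0 < η) :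
    ∃ k, ∃ y ∈ F, ‖u k - y‖ ≤ η := by
  have : IsClosed (F : Set X) := hF.1
  have : FiniteDimensional ℝ (X ⧸ F) := hF.2
  let b := Module.finBasis ℝ (X ⧸ F)
  choose v hv using fun i => Submodule.Quotient.mk_surjective F (b i)
  let φ : _ → StrongDual ℝ X :=
    fun i => (LinearMap.toContinuousLinearMap (b.coord i)).comp F.mkQL
  have hφ : ∀ i z, φ i z = b.repr (Submodule.Quotient.mk z) i := fun i z => rfl
  have hmem : ∀ z : X, z - ∑ i, φ i z • v i ∈ F := by
    intro z
    rw [← Submodule.Quotient.mk_eq_zero]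
    have h1 : (Submodule.Quotient.mk (z - ∑ i, φ i z • v i) : X ⧸ F)
        = Submodule.Quotient.mk z - ∑ i, φ i z • b i := by
      simp only [Submodule.Quotient.mk_sub]
      congr 1
      rw [← Submodule.mkQ_apply, map_sum]
      apply sum_congr rfl
      intro i _
      rw [map_smul, Submodule.mkQ_apply, hv]
    rw [h1, sub_eq_zero]
    simp only [hφ]
    exact (b.sum_repr _).symm
  have hlim : Tendsto (fun k => ∑ i, |φ i (u k)| * ‖v i‖) atTop (𝓝 0) := by
    have : Tendsto (fun k => ∑ i, |φ i (u k)| * ‖v i‖) atTop (𝓝 (∑ i : _, |(0 : ℝ)| * ‖v i‖)) := by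
      apply tendsto_finsetSum
      intro i _
      exact ((hu (φ i)).abs).mul_const _
    simpa using this
  obtain ⟨k, hk⟩ := ((tendsto_order.mp hlim).2 η hη).exists
  refine ⟨k, _, hmem (u k), ?_⟩
  rw [sub_sub_cancel]
  refine (norm_sum_le _ _).trans ?_
  refine le_trans (le_of_eq ?_) hk.le
  apply sum_congr rfl
  intro i _
  rw [norm_smul, Real.norm_eq_abs]

variable {T : Type} [RTree T]

/-- coordinate functionals along the children of a node form a weakly null sequence -/
lemma ev_child_tendsto (f : StrongDual ℝ (StrongDual ℝ (T →₀ ℝ))) {t : T} (ht : 0 < grow t) :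
    Tendsto (fun k => f (ev (child t k))) atTop (𝓝 0) := by
  have hsum : Summable (fun k => (f (ev (child t k))) ^ 2) := by
    apply summable_of_sum_le (c := ‖f‖ ^ 2) (fun _ => sq_nonneg _)
    intro K
    let B : Finset T := K.image (child t)
    let D : Finset T := lowClosure B
    have h1 : ‖zOf f D‖ ≤ ‖f‖ := norm_zOf_le f (lowClosure_lower B)
    have h2 : ∑ γ ∈ B, (zOf f D γ) ^ 2 ≤ ‖zOf f D‖ ^ 2 := sq_sum_le_norm _ _
    have h3 : ∑ γ ∈ B, (zOf f D γ) ^ 2 = ∑ k ∈ K, (f (ev (child t k))) ^ 2 := by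
      rw [sum_image (fun a _ b _ hab => child_inj t ht hab)]
      apply sum_congr rfl
      intro k hk
      rw [zOf_apply, if_pos]
      exact subset_lowClosure B (mem_image_of_mem _ hk)
    rw [← h3]
    exact h2.trans (pow_le_pow_left₀ (norm_nonneg _) h1 2)
  have h1 := hsum.tendsto_atTop_zero
  have h2 := (Real.continuous_sqrt.tendsto' 0 0 Real.sqrt_zero).comp h1
  simp only [Function.comp_def, Real.sqrt_sq_eq_abs] at h2
  exact (tendsto_zero_iff_abs_tendsto_zero _).mpr h2

/-- the modulus grows with `t` -/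
lemma auc_mono {E : Type} [AddCommGroup E] [Module ℝ E] (N : Seminorm ℝ E) {x y : E} {t τ δ : ℝ}
    (hx : N x = 1) (ht : 0 < t) (htτ : t ≤ τ) (hδ : 0 < δ) (h : 1 + δ ≤ N (x + t • y)) :
    1 + δ ≤ N (x + τ • y) := by
  have hτ : 0 < τ := lt_of_lt_of_le ht htτ
  set l := t / τ with hl
  have hl0 : 0 < l := div_pos ht hτ
  have hl1 : l ≤ 1 := (div_le_one hτ).mpr htτ
  have h1 : x + t • y = (1 - l) • x + l • (x + τ • y) := by
    have : l * τ = t := by rw [hl]; field_simp
    rw [smul_add, smul_smul, this, ← add_assoc, ← add_smul]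
    simp
  have h2 : N (x + t • y) ≤ (1 - l) * N x + l * N (x + τ • y) := by
    rw [h1]
    refine (map_add_le_add N _ _).trans ?_
    rw [map_smul_eq_mul, map_smul_eq_mul, Real.norm_eq_abs, Real.norm_eq_abs,
      abs_of_nonneg (by linarith : 0 ≤ 1 - l), abs_of_pos hl0]
  rw [hx] at h2
  by_contra hcon
  push Not at hcon
  have hw : N (x + τ • y) - 1 < δ := by linarith
  have h3 : l * (N (x + τ • y) - 1) ≥ δ := by linarith
  rcases le_or_gt (N (x + τ • y) - 1) 0 with h4 | h4
  · have := mul_nonpos_of_nonneg_of_nonpos hl0.le h4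
    linarith
  · have : l * (N (x + τ • y) - 1) ≤ 1 * (N (x + τ • y) - 1) :=
      mul_le_mul_of_nonneg_right hl1 h4.le
    linarith

lemma icc_child {b t : T} (hbt : b ≤ t) (hg : 0 < grow t) (k : ℕ) :
    icc b (child t k) = insert (child t k) (icc b t) := by
  have hne := child_ne_root t k hg
  have hpar := par_child t k hg
  have hlt : t < child t k := by
    have := par_lt hne
    rwa [hpar] at this
  ext c
  rw [mem_insert, mem_icc, mem_icc]
  constructor
  · rintro ⟨h1, h2⟩
    rcases eq_or_lt_of_le h2 with h3 | h3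
    · exact Or.inl h3
    · right
      refine ⟨h1, ?_⟩
      have := le_par_of_lt h3
      rwa [hpar] at this
  · rintro (rfl | ⟨h1, h2⟩)
    · exact ⟨hbt.trans hlt.le, le_rfl⟩
    · exact ⟨h1, h2.trans hlt.le⟩

lemma segF_child {b t : T} (hbt : b ≤ t) (hg : 0 < grow t) (k : ℕ) :
    segF (icc b (child t k)) = segF (icc b t) + ev (child t k) := by
  have hne := child_ne_root t k hg
  have hpar := par_child t k hg
  have hlt : t < child t k := by
    have := par_lt hne
    rwa [hpar] at this
  have hnot : child t k ∉ icc b t := by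
    intro h
    exact absurd (mem_icc.mp h).2 hlt.not_ge
  simp only [segF]
  rw [icc_child hbt hg, sum_insert hnot, add_comm]

/-- one step along a branch raises the value of any asymptotically uniformly convex norm -/
lemma auc_step (N : Seminorm ℝ (StrongDual ℝ (T →₀ ℝ))) {K : ℝ} (hK : 0 < K)
    (hN : ∀ x, ‖x‖ ≤ K * N x ∧ N x ≤ K * ‖x‖) {δ : ℝ} (hδ : 0 < δ)
    (hauc : ∀ x, N x = 1 → ∃ F : Submodule ℝ (StrongDual ℝ (T →₀ ℝ)), IsCof F ∧
      ∀ y ∈ F, N y = 1 → 1 + δ ≤ N (x + (1 / (2 * K ^ 2)) • y))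
    {b t : T} (hbt : b ≤ t) (hg : 0 < grow t) (hs : 0 < N (segF (icc b t))) :
    ∃ k, (1 + δ / 2) * N (segF (icc b t)) ≤ N (segF (icc b (child t k))) := by
  set v := segF (icc b t) with hv
  set s := N v with hsdef
  have hvnorm : ‖v‖ ≤ 1 := norm_segF_le (isSeg_icc b t)
  have hs1 : s ≤ K := by
    have := (hN v).2
    nlinarith
  let x := s⁻¹ • v
  have hx : N x = 1 := by
    simp only [x]
    rw [map_smul_eq_mul, Real.norm_eq_abs, abs_of_pos (inv_pos.mpr hs)]
    exact inv_mul_cancel₀ hs.ne'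
  obtain ⟨F, hF, hFy⟩ := hauc x hx
  set η := min (1 / 2) (δ * s / (2 * K)) with hηdef
  have hη : 0 < η := lt_min (by norm_num) (by positivity)
  obtain ⟨k, y', hy'F, hy'⟩ := exists_near_cof hF (fun k => ev (child t k))
    (fun f => ev_child_tendsto f hg) hη
  refine ⟨k, ?_⟩
  set u := ev (child t k) with hu
  have hu1 : 1 ≤ ‖u‖ := one_le_norm_ev _
  have hy'1 : 1 / 2 ≤ ‖y'‖ := by
    have h1 : ‖u‖ ≤ ‖u - y'‖ + ‖y'‖ := norm_le_norm_sub_add u y'
    have h2 : η ≤ 1 / 2 := min_le_left _ _
    linarith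
  have hNy' : 1 / (2 * K) ≤ N y' := by
    have h1 := (hN y').1
    rw [div_le_iff₀ (by positivity)]
    nlinarith
  have hNy'pos : 0 < N y' := lt_of_lt_of_le (by positivity) hNy'
  let y := (N y')⁻¹ • y'
  have hyF : y ∈ F := F.smul_mem _ hy'F
  have hy1 : N y = 1 := by
    simp only [y]
    rw [map_smul_eq_mul, Real.norm_eq_abs, abs_of_pos (inv_pos.mpr hNy'pos)]
    exact inv_mul_cancel₀ hNy'pos.ne'
  set τ := N y' / s with hτ
  have ht₀τ : 1 / (2 * K ^ 2) ≤ τ := by
    rw [hτ, div_le_div_iff₀ (by positivity) hs]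
    have h1 : s * 1 ≤ K * 1 := by linarith
    have h2 : 1 ≤ N y' * (2 * K) := by
      rw [div_le_iff₀ (by positivity)] at hNy'
      linarith
    nlinarith
  have hbig : 1 + δ ≤ N (x + τ • y) :=
    auc_mono N hx (by positivity) ht₀τ hδ (hFy y hyF hy1)
  have hvy : v + y' = s • (x + τ • y) := by
    simp only [x, y]
    rw [smul_add, smul_smul, smul_smul, smul_smul, mul_inv_cancel₀ hs.ne', one_smul]
    congr 1
    have : s * τ * (N y')⁻¹ = 1 := by
      rw [hτ]
      field_simp
    rw [this, one_smul]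
  have hNvy : s * (1 + δ) ≤ N (v + y') := by
    rw [hvy, map_smul_eq_mul, Real.norm_eq_abs, abs_of_pos hs]
    exact mul_le_mul_of_nonneg_left hbig hs.le
  have hdiff : N (u - y') ≤ δ * s / 2 := by
    have h1 := (hN (u - y')).2
    have h2 : η ≤ δ * s / (2 * K) := min_le_right _ _
    have h3 : K * ‖u - y'‖ ≤ K * (δ * s / (2 * K)) :=
      mul_le_mul_of_nonneg_left (hy'.trans h2) hK.le
    have h4 : K * (δ * s / (2 * K)) = δ * s / 2 := by
      field_simp
    linarith
  have htri : N (v + y') ≤ N (v + u) + N (u - y') := by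
    have : v + y' = (v + u) - (u - y') := by abel
    rw [this]
    exact map_sub_le_add N _ _
  rw [segF_child hbt hg k, ← hv, ← hu]
  nlinarith

/-- No equivalent norm is asymptotically uniformly convex. -/
theorem no_auc (N : Seminorm ℝ (StrongDual ℝ (T →₀ ℝ))) {K : ℝ} (hK : 0 < K)
    (hN : ∀ x, ‖x‖ ≤ K * N x ∧ N x ≤ K * ‖x‖) : ¬ IsAUC (fun x => N x) := by
  intro hauc
  obtain ⟨δ, hδ, hstep⟩ := hauc (1 / (2 * K ^ 2)) (by positivity)
  have hiter : ∀ (j : ℕ) (b t : T), b ≤ t → j ≤ grow t → 0 < N (segF (icc b t)) →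
      ∃ t', b ≤ t' ∧ (1 + δ / 2) ^ j * N (segF (icc b t)) ≤ N (segF (icc b t')) := by
    intro j
    induction j with
    | zero =>
      intro b t hbt _ _
      exact ⟨t, hbt, by simp⟩
    | succ j ih =>
      intro b t hbt hj hs
      have hg : 0 < grow t := by omega
      obtain ⟨k, hk⟩ := auc_step N hK hN hδ hstep hbt hg hs
      have hc : t ≤ child t k := by
        have hne := child_ne_root t k hg
        have hpar := par_child t k hg
        have := (par_lt hne).le
        rwa [hpar] at this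
      have hgc : j ≤ grow (child t k) := by
        have := grow_child t k hg
        omega
      have hpos : 0 < N (segF (icc b (child t k))) := by
        have h1 : 0 < (1 + δ / 2) * N (segF (icc b t)) := by positivity
        linarith
      obtain ⟨t', h1, h2⟩ := ih b (child t k) (hbt.trans hc) hgc hpos
      refine ⟨t', h1, le_trans ?_ h2⟩
      rw [pow_succ, mul_assoc]
      exact mul_le_mul_of_nonneg_left hk (by positivity)
  have hone : (1 : ℝ) < 1 + δ / 2 := by linarith
  obtain ⟨j, hj⟩ := pow_unbounded_of_one_lt (K * K) hone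
  obtain ⟨b, -, hb⟩ := exists_grow (T := T) j
  have hsingle : segF (icc b b) = ev b := by
    have h1 : icc b b = {b} := by
      ext c
      rw [mem_icc, mem_singleton]
      constructor
      · rintro ⟨h2, h3⟩; exact le_antisymm h3 h2
      · rintro rfl; exact ⟨le_rfl, le_rfl⟩
    simp [segF, h1]
  have hlow : 1 / K ≤ N (segF (icc b b)) := by
    rw [hsingle, div_le_iff₀ hK]
    have h1 := (hN (ev b)).1
    have h2 := one_le_norm_ev b
    linarith
  have hpos : 0 < N (segF (icc b b)) := lt_of_lt_of_le (by positivity) hlow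
  obtain ⟨t', hbt', hval⟩ := hiter j b b le_rfl hb hpos
  have hup : N (segF (icc b t')) ≤ K := by
    have h1 := (hN (segF (icc b t'))).2
    have h2 := norm_segF_le (isSeg_icc b t')
    nlinarith
  have h1 : (1 + δ / 2) ^ j * (1 / K) ≤ (1 + δ / 2) ^ j * N (segF (icc b b)) :=
    mul_le_mul_of_nonneg_left hlow (by positivity)
  have h2 : (1 + δ / 2) ^ j * (1 / K) ≤ K := by linarith
  rw [mul_one_div, div_le_iff₀ hK] at h2
  linarith

end Vale.Agent.Lib.P069
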