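import Vale.Agent.Lib.P069.Zee

/-!
# Operations on segments and on finitely supported functions
-/

namespace Vale.Agent.Lib.P069

open Finset RTree
open scoped Classical

variable {T : Type} [RTree T]

set_option linter.unusedSectionVars false

/-- Order convex predicates. -/
def Conv (p : T → Prop) : Prop := ∀ a c b, p a → p c → a ≤ b → b ≤ c → p b

lemma isSeg_filter {p : T → Prop} [DecidablePred p] (hp : Conv p) {S : Finset T} (hS : IsSeg S) :
    IsSeg (S.filter p) := by
  constructor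
  · intro a ha b hb
    exact hS.1 a (mem_filter.mp ha).1 b (mem_filter.mp hb).1
  · intro a ha c hc b h1 h2
    have ha' := mem_filter.mp ha
    have hc' := mem_filter.mp hc
    exact mem_filter.mpr ⟨hS.2 a ha'.1 c hc'.1 b h1 h2, hp a c b ha'.2 hc'.2 h1 h2⟩

lemma sg_filter (p : T → Prop) [DecidablePred p] (g : T →₀ ℝ) (S : Finset T) :
    sg (g.filter p) S = sg g (S.filter p) := by
  simp only [sg, Finsupp.filter_apply]
  rw [sum_filter]

lemma norm_filter_le {p : T → Prop} [DecidablePred p] (hp : Conv p) (g : T →₀ ℝ) :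
    ‖g.filter p‖ ≤ ‖g‖ := by
  apply norm_le_of (norm_nonneg _)
  intro 𝒮 h𝒮
  have h := fam_le' (s := 𝒮) (P := fun S => S.filter p)
    ⟨fun S hS => isSeg_filter hp (h𝒮.seg S hS), fun i hi j hj hij => by
      have := h𝒮.disj i hi j hj hij
      simp only [id] at this
      exact disjoint_of_subset_left (filter_subset _ _)
        (disjoint_of_subset_right (filter_subset _ _) this)⟩ g
  simpa only [sg_filter] using h

/-- orthogonality: if no segment sees both functions, the squares of the norms add up -/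
lemma norm_add_sq_le_of_orth {g₁ g₂ : T →₀ ℝ}
    (h : ∀ S : Finset T, IsSeg S → sg g₁ S = 0 ∨ sg g₂ S = 0) :
    ‖g₁ + g₂‖ ^ 2 ≤ ‖g₁‖ ^ 2 + ‖g₂‖ ^ 2 := by
  have hC : 0 ≤ ‖g₁‖ ^ 2 + ‖g₂‖ ^ 2 := by positivity
  have h0 : ‖g₁ + g₂‖ ≤ Real.sqrt (‖g₁‖ ^ 2 + ‖g₂‖ ^ 2) := by
    apply norm_le_of (Real.sqrt_nonneg _)
    intro 𝒮 h𝒮
    rw [Real.sq_sqrt hC]
    have h1 := fam_le' h𝒮 g₁
    have h2 := fam_le' h𝒮 g₂
    simp only [id] at h1 h2
    calc ∑ S ∈ 𝒮, (sg (g₁ + g₂) S) ^ 2
        ≤ ∑ S ∈ 𝒮, ((sg g₁ S) ^ 2 + (sg g₂ S) ^ 2) := by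
          apply sum_le_sum
          intro S hS
          rw [sg_add]
          rcases h S (h𝒮.seg S hS) with h3 | h3 <;> simp [h3]
      _ ≤ ‖g₁‖ ^ 2 + ‖g₂‖ ^ 2 := by
          rw [sum_add_distrib]
          exact add_le_add h1 h2
  calc ‖g₁ + g₂‖ ^ 2 ≤ (Real.sqrt (‖g₁‖ ^ 2 + ‖g₂‖ ^ 2)) ^ 2 := by gcongr
    _ = _ := Real.sq_sqrt hC

/-- a family given by two segments for each index -/
lemma fam_two {ι : Type} {s : Finset ι} {P Q U : ι → Finset T}
    (hP : ∀ i ∈ s, IsSeg (P i)) (hQ : ∀ i ∈ s, IsSeg (Q i))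
    (hPQ : ∀ i ∈ s, Disjoint (P i) (Q i))
    (hPU : ∀ i ∈ s, P i ⊆ U i) (hQU : ∀ i ∈ s, Q i ⊆ U i)
    (hU : ∀ i ∈ s, ∀ j ∈ s, i ≠ j → Disjoint (U i) (U j)) (g : T →₀ ℝ) :
    ∑ i ∈ s, ((sg g (P i)) ^ 2 + (sg g (Q i)) ^ 2) ≤ ‖g‖ ^ 2 := by
  let R : ι × Bool → Finset T := fun x => if x.2 then P x.1 else Q x.1
  have hR : Fam (s ×ˢ (univ : Finset Bool)) R := by
    constructor
    · rintro ⟨i, b⟩ hx
      have hi : i ∈ s := (mem_product.mp hx).1
      cases b
      · simpa [R] using hQ i hi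
      · simpa [R] using hP i hi
    · rintro ⟨i, b⟩ hx ⟨j, c⟩ hy hne
      have hi : i ∈ s := (mem_product.mp hx).1
      have hj : j ∈ s := (mem_product.mp hy).1
      by_cases hij : i = j
      · subst hij
        have hbc : b ≠ c := by
          intro h; exact hne (by rw [h])
        cases b <;> cases c <;> simp_all [R, disjoint_comm]
      · have h0 := hU i hi j hj hij
        have h1 : R (i, b) ⊆ U i := by
          cases b
          · simpa [R] using hQU i hi
          · simpa [R] using hPU i hi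
        have h2 : R (j, c) ⊆ U j := by
          cases c
          · simpa [R] using hQU j hj
          · simpa [R] using hPU j hj
        exact disjoint_of_subset_left h1 (disjoint_of_subset_right h2 h0)
  have h := fam_le' hR g
  rw [sum_product] at h
  simpa [R, add_comm] using h

/-! ### Intervals in the tree -/

/-- the closed interval from `b` to `t` -/
noncomputable def icc (b t : T) : Finset T := (anc t).filter (fun c => b ≤ c)

/-- the half open interval from `b` to `t` -/
noncomputable def ico (b t : T) : Finset T := (anc t).filter (fun c => b ≤ c ∧ c < t)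

lemma mem_icc {b t c : T} : c ∈ icc b t ↔ b ≤ c ∧ c ≤ t := by
  simp only [icc, mem_filter, mem_anc]
  tauto

lemma mem_ico {b t c : T} : c ∈ ico b t ↔ b ≤ c ∧ c < t := by
  simp only [ico, mem_filter, mem_anc]
  constructor
  · rintro ⟨_, h⟩; exact h
  · rintro ⟨h1, h2⟩; exact ⟨h2.le, h1, h2⟩

lemma isSeg_icc (b t : T) : IsSeg (icc b t) := by
  constructor
  · intro a ha c hc
    exact le_total_of_le (mem_icc.mp ha).2 (mem_icc.mp hc).2
  · intro a ha c hc x h1 h2
    exact mem_icc.mpr ⟨(mem_icc.mp ha).1.trans h1, h2.trans (mem_icc.mp hc).2⟩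

lemma isSeg_ico (b t : T) : IsSeg (ico b t) := by
  constructor
  · intro a ha c hc
    exact le_total_of_le (mem_ico.mp ha).2.le (mem_ico.mp hc).2.le
  · intro a ha c hc x h1 h2
    exact mem_ico.mpr ⟨(mem_ico.mp ha).1.trans h1, lt_of_le_of_lt h2 (mem_ico.mp hc).2⟩

/-- Every nonempty segment is a closed interval. -/
lemma exists_icc {S : Finset T} (hS : IsSeg S) (hne : S.Nonempty) :
    ∃ b t, b ∈ S ∧ t ∈ S ∧ b ≤ t ∧ S = icc b t := by
  obtain ⟨b, hb, hbmin⟩ := S.exists_min_image dep hne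
  obtain ⟨t, ht, htmax⟩ := S.exists_max_image dep hne
  have h1 : ∀ c ∈ S, b ≤ c := by
    intro c hc
    rcases hS.1 b hb c hc with h | h
    · exact h
    · rcases eq_or_lt_of_le h with h' | h'
      · exact h'.symm.le
      · exact absurd (hbmin c hc) (not_le.mpr (dep_lt_of_lt h'))
  have h2 : ∀ c ∈ S, c ≤ t := by
    intro c hc
    rcases hS.1 c hc t ht with h | h
    · exact h
    · rcases eq_or_lt_of_le h with h' | h'
      · exact h'.symm.le
      · exact absurd (htmax c hc) (not_le.mpr (dep_lt_of_lt h'))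
  refine ⟨b, t, hb, ht, h1 t ht, ?_⟩
  ext c
  rw [mem_icc]
  constructor
  · intro hc
    exact ⟨h1 c hc, h2 c hc⟩
  · rintro ⟨h3, h4⟩
    exact hS.2 b hb t ht c h3 h4

/-- telescoping along a path -/
lemma sum_icc_telescope (w ψ : T → ℝ) (hw : ∀ c, c ≠ root → w c = ψ c - ψ (par c))
    {b : T} (hb : b ≠ root) : ∀ (n : ℕ) (t : T), dep t = n → b ≤ t →
    ∑ c ∈ icc b t, w c = ψ t - ψ (par b) := by
  intro n
  induction n with
  | zero =>
    intro t ht hle
    have h0 : t = root := eq_root_of_dep t ht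
    subst h0
    exact absurd (le_antisymm hle (root_le b)) hb
  | succ n ih =>
    intro t ht hle
    rcases eq_or_lt_of_le hle with h | h
    · subst h
      have h1 : icc b b = {b} := by
        ext c
        rw [mem_icc, mem_singleton]
        constructor
        · rintro ⟨h2, h3⟩; exact le_antisymm h3 h2
        · rintro rfl; exact ⟨le_rfl, le_rfl⟩
      rw [h1, sum_singleton, hw b hb]
    · have ht0 : t ≠ root := ne_root_of_lt h
      have h1 : icc b t = insert t (icc b (par t)) := by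
        ext c
        rw [mem_insert, mem_icc, mem_icc]
        constructor
        · rintro ⟨h2, h3⟩
          rcases eq_or_lt_of_le h3 with h4 | h4
          · exact Or.inl h4
          · exact Or.inr ⟨h2, le_par_of_lt h4⟩
        · rintro (rfl | ⟨h2, h3⟩)
          · exact ⟨hle, le_rfl⟩
          · exact ⟨h2, h3.trans (par_le t)⟩
      have h2 : t ∉ icc b (par t) := by
        intro h3
        have := (mem_icc.mp h3).2
        exact absurd this (par_lt ht0).not_ge
      have h3 := dep_par t ht0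
      rw [h1, sum_insert h2, ih (par t) (by omega) (le_par_of_lt h), hw t ht0]
      ring

/-- `ico` splits at an intermediate point -/
lemma sg_ico_split (g : T →₀ ℝ) {b c t : T} (h1 : b ≤ c) (h2 : c ≤ t) :
    sg g (ico b t) = sg g (ico b c) + sg g (ico c t) := by
  have h3 : ico b t = ico b c ∪ ico c t := by
    ext x
    rw [mem_union, mem_ico, mem_ico, mem_ico]
    constructor
    · rintro ⟨h4, h5⟩
      rcases le_total_of_le h5.le h2 with h6 | h6
      · rcases eq_or_lt_of_le h6 with h7 | h7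
        · right; exact ⟨h7.symm.le, h5⟩
        · left; exact ⟨h4, h7⟩
      · right; exact ⟨h6, h5⟩
    · rintro (⟨h4, h5⟩ | ⟨h4, h5⟩)
      · exact ⟨h4, lt_of_lt_of_le h5 h2⟩
      · exact ⟨h1.trans h4, h5⟩
  rw [h3, sg_union]
  rw [disjoint_left]
  intro x hx hx'
  exact absurd (mem_ico.mp hx).2 (mem_ico.mp hx').1.not_gt

lemma disjoint_ico_ico (b c t : T) : Disjoint (ico b c) (ico c t) := by
  rw [disjoint_left]
  intro x hx hx'
  exact absurd (mem_ico.mp hx).2 (mem_ico.mp hx').1.not_gt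

/-! ### Lower sets and cuts -/

/-- finite lower sets of the tree -/
def IsLowerF (A : Finset T) : Prop := ∀ a b, a ≤ b → b ∈ A → a ∈ A

lemma conv_mem {A : Finset T} (hA : IsLowerF A) : Conv (fun γ => γ ∈ A) := by
  intro a c b _ hc _ h2
  exact hA b c h2 hc

lemma conv_not_mem {A : Finset T} (hA : IsLowerF A) : Conv (fun γ => γ ∉ A) := by
  intro a c b ha _ h1 _ hb
  exact ha (hA a b h1 hb)

/-- the lower closure of a finite set -/
noncomputable def lowClosure (B : Finset T) : Finset T := insert root (B.biUnion anc)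

lemma lowClosure_lower (B : Finset T) : IsLowerF (lowClosure B) := by
  intro a b hab hb
  rcases mem_insert.mp hb with rfl | hb'
  · exact mem_insert.mpr (Or.inl (le_antisymm hab (root_le a)))
  · obtain ⟨c, hc, hbc⟩ := mem_biUnion.mp hb'
    exact mem_insert.mpr (Or.inr (mem_biUnion.mpr ⟨c, hc, mem_anc.mpr (hab.trans (mem_anc.mp hbc))⟩))

lemma subset_lowClosure (B : Finset T) : B ⊆ lowClosure B := by
  intro b hb
  exact mem_insert.mpr (Or.inr (mem_biUnion.mpr ⟨b, hb, mem_anc.mpr le_rfl⟩))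

lemma root_mem_lowClosure (B : Finset T) : (root : T) ∈ lowClosure B := mem_insert_self _ _

/-- a cut point of a lower set: a minimal node outside -/
def IsCut (A : Finset T) (δ : T) : Prop := δ ∉ A ∧ ∀ c, c < δ → c ∈ A

lemma exists_cut (A : Finset T) {γ : T} (hγ : γ ∉ A) : ∃ δ, IsCut A δ ∧ δ ≤ γ := by
  have hne : ((anc γ).filter (fun c => c ∉ A)).Nonempty :=
    ⟨γ, mem_filter.mpr ⟨mem_anc.mpr le_rfl, hγ⟩⟩
  obtain ⟨δ, hδ, hmin⟩ := ((anc γ).filter (fun c => c ∉ A)).exists_min_image dep hne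
  have hδ' := mem_filter.mp hδ
  have hle : δ ≤ γ := mem_anc.mp hδ'.1
  refine ⟨δ, ⟨hδ'.2, ?_⟩, hle⟩
  intro c hc
  by_contra hcA
  have h1 : c ∈ (anc γ).filter (fun c => c ∉ A) :=
    mem_filter.mpr ⟨mem_anc.mpr (hc.le.trans hle), hcA⟩
  exact absurd (hmin c h1) (not_le.mpr (dep_lt_of_lt hc))

lemma cut_unique {A : Finset T} {δ δ' γ : T} (h1 : IsCut A δ) (h2 : IsCut A δ')
    (h3 : δ ≤ γ) (h4 : δ' ≤ γ) : δ = δ' := by
  rcases le_total_of_le h3 h4 with h | h
  · rcases eq_or_lt_of_le h with h' | h'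
    · exact h'
    · exact absurd (h2.2 δ h') h1.1
  · rcases eq_or_lt_of_le h with h' | h'
    · exact h'.symm
    · exact absurd (h1.2 δ' h') h2.1

/-- the cut point below a node -/
noncomputable def cut (A : Finset T) (γ : T) : T :=
  if h : ∃ δ, IsCut A δ ∧ δ ≤ γ then h.choose else γ

lemma cut_eq {A : Finset T} {δ γ : T} (h1 : IsCut A δ) (h2 : δ ≤ γ) : cut A γ = δ := by
  have h : ∃ δ, IsCut A δ ∧ δ ≤ γ := ⟨δ, h1, h2⟩
  rw [cut, dif_pos h]
  exact cut_unique h.choose_spec.1 h1 h.choose_spec.2 h2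

/-! ### The potential of a finitely supported function -/

/-- the sum of `h` over all ancestors -/
noncomputable def pot (h : T →₀ ℝ) (γ : T) : ℝ := sg h (anc γ)

lemma anc_eq_insert {γ : T} (hγ : γ ≠ root) : anc γ = insert γ (anc (par γ)) := by
  ext c
  rw [mem_insert, mem_anc, mem_anc]
  constructor
  · intro h
    rcases eq_or_lt_of_le h with h' | h'
    · exact Or.inl h'
    · exact Or.inr (le_par_of_lt h')
  · rintro (rfl | h)
    · exact le_rfl
    · exact h.trans (par_le γ)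

lemma not_mem_anc_par {γ : T} (hγ : γ ≠ root) : γ ∉ anc (par γ) := by
  intro h
  exact absurd (mem_anc.mp h) (par_lt hγ).not_ge

lemma pot_sub_par (h : T →₀ ℝ) {γ : T} (hγ : γ ≠ root) : pot h γ - pot h (par γ) = h γ := by
  simp only [pot, sg]
  rw [anc_eq_insert hγ, sum_insert (not_mem_anc_par hγ)]
  ring

lemma pot_eq_zero_of_mem {A : Finset T} (hA : IsLowerF A) {h : T →₀ ℝ} (hh : ∀ γ ∈ A, h γ = 0)
    {γ : T} (hγ : γ ∈ A) : pot h γ = 0 := by
  simp only [pot, sg]
  apply sum_eq_zero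
  intro c hc
  exact hh c (hA c γ (mem_anc.mp hc) hγ)

lemma exists_top (h : T →₀ ℝ) (δ : T) :
    ∃ τ, δ ≤ τ ∧ ∀ γ, δ ≤ γ → |pot h γ| ≤ |pot h τ| := by
  have h1 : ∀ γ, pot h γ = ∑ c ∈ (anc γ).filter (· ∈ h.support), h c := by
    intro γ
    simp only [pot, sg]
    rw [sum_filter]
    apply sum_congr rfl
    intro c _
    by_cases hc : c ∈ h.support
    · simp [hc]
    · simp only [hc, if_false]
      exact Finsupp.notMem_support_iff.mp hc
  let 𝒲 : Finset (Finset T) := h.support.powerset.filter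
    (fun W => ∃ γ, δ ≤ γ ∧ W = (anc γ).filter (· ∈ h.support))
  have hne : 𝒲.Nonempty := by
    refine ⟨(anc δ).filter (· ∈ h.support), mem_filter.mpr ⟨?_, δ, le_rfl, rfl⟩⟩
    rw [mem_powerset]
    intro c hc
    exact (mem_filter.mp hc).2
  obtain ⟨W, hW, hmax⟩ := 𝒲.exists_max_image (fun W => |∑ c ∈ W, h c|) hne
  obtain ⟨-, τ, hτ, rfl⟩ := mem_filter.mp hW
  refine ⟨τ, hτ, ?_⟩
  intro γ hγ
  rw [h1 γ, h1 τ]
  apply hmax
  refine mem_filter.mpr ⟨?_, γ, hγ, rfl⟩
  rw [mem_powerset]
  intro c hc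
  exact (mem_filter.mp hc).2

/-- The sign attached to a cut point at a given scale. -/
lemma exists_sign (g : T →₀ ℝ) (δ : T) (r : ℝ) :
    ∃ ν : ℝ, (ν = 1 ∨ ν = -1) ∧ ∀ b, b < δ → ν * sg g (ico b δ) < 0 →
      ν * sg g (ico b δ) ≤ -r → ∃ c, b < c ∧ c < δ ∧ r ≤ ν * sg g (ico c δ) := by
  let L : Finset T := (anc δ).filter (fun b => b < δ ∧ r ≤ |sg g (ico b δ)|)
  by_cases hL : L.Nonempty
  · obtain ⟨c, hc, hmax⟩ := L.exists_max_image dep hL
    obtain ⟨hc1, hc2, hc3⟩ := mem_filter.mp hc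
    by_cases hsign : 0 ≤ sg g (ico c δ)
    · refine ⟨1, Or.inl rfl, ?_⟩
      intro b hb h1 h2
      have hbL : b ∈ L := by
        refine mem_filter.mpr ⟨mem_anc.mpr hb.le, hb, ?_⟩
        rw [one_mul] at h1 h2
        rw [abs_of_neg h1]
        linarith
      have hbc : b ≤ c := by
        rcases le_total_of_le hb.le hc2.le with h | h
        · exact h
        · rcases eq_or_lt_of_le h with h' | h'
          · exact h'.symm.le
          · exact absurd (hmax b hbL) (not_le.mpr (dep_lt_of_lt h'))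
      have hne : b ≠ c := by
        rintro rfl
        rw [one_mul] at h1
        linarith
      refine ⟨c, lt_of_le_of_ne hbc hne, hc2, ?_⟩
      rw [one_mul]
      rwa [abs_of_nonneg hsign] at hc3
    · push Not at hsign
      refine ⟨-1, Or.inr rfl, ?_⟩
      intro b hb h1 h2
      have hbL : b ∈ L := by
        refine mem_filter.mpr ⟨mem_anc.mpr hb.le, hb, ?_⟩
        have h3 : 0 < sg g (ico b δ) := by linarith
        rw [abs_of_pos h3]
        linarith
      have hbc : b ≤ c := by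
        rcases le_total_of_le hb.le hc2.le with h | h
        · exact h
        · rcases eq_or_lt_of_le h with h' | h'
          · exact h'.symm.le
          · exact absurd (hmax b hbL) (not_le.mpr (dep_lt_of_lt h'))
      have hne : b ≠ c := by
        rintro rfl
        linarith
      refine ⟨c, lt_of_le_of_ne hbc hne, hc2, ?_⟩
      rw [abs_of_neg hsign] at hc3
      linarith
  · refine ⟨1, Or.inl rfl, ?_⟩
    intro b hb h1 h2
    exfalso
    apply hL
    refine ⟨b, mem_filter.mpr ⟨mem_anc.mpr hb.le, hb, ?_⟩⟩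
    rw [one_mul] at h1 h2
    rw [abs_of_neg h1]
    linarith

end Vale.Agent.Lib.P069
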