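import Mathlib

/-!
# Rooted trees used for the James tree construction (problem P069)

A rooted tree is given abstractly by a parent map and a depth map, together with
a level function and a way of producing infinitely many children.  All later
files only use the laws of this class, and a concrete instance is given at the end.
-/

namespace Vale.Agent.Lib.P069

open Finset

/-- Rooted tree data. -/
class RTree (T : Type) where
  /-- the root -/
  root : T
  /-- the parent of a node (the root is its own parent) -/
  par : T → T
  /-- the depth of a node -/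
  dep : T → ℕ
  /-- a level: comparable non-root nodes have the same level -/
  lev : T → ℕ
  /-- how many more generations of children are available below a node -/
  grow : T → ℕ
  /-- the children of a node, indexed by natural numbers -/
  child : T → ℕ → T
  par_root : par root = root
  dep_root : dep root = 0
  eq_root_of_dep : ∀ t, dep t = 0 → t = root
  dep_par : ∀ t, t ≠ root → dep (par t) + 1 = dep t
  lev_par : ∀ t, par t ≠ root → lev (par t) = lev t
  dep_le_lev : ∀ t, dep t ≤ lev t + 1
  par_child : ∀ t k, 0 < grow t → par (child t k) = t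
  grow_child : ∀ t k, 0 < grow t → grow (child t k) + 1 = grow t
  child_inj : ∀ t, 0 < grow t → Function.Injective (child t)
  child_ne_root : ∀ t k, 0 < grow t → child t k ≠ root
  exists_grow : ∀ j, ∃ t, t ≠ root ∧ j ≤ grow t

variable {T : Type} [RTree T]

open RTree

/-- iterating the parent map lowers the depth -/
lemma dep_iter (t : T) (i : ℕ) : dep (par^[i] t) = dep t - i := by
  induction i with
  | zero => simp
  | succ n ih =>
    rw [Function.iterate_succ_apply']
    by_cases h : par^[n] t = root
    · rw [h, par_root, dep_root]
      rw [h, dep_root] at ih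
      omega
    · have := dep_par _ h
      omega

lemma iter_root (i : ℕ) : par^[i] (root : T) = root := by
  induction i with
  | zero => rfl
  | succ n ih => rw [Function.iterate_succ_apply', ih, par_root]

/-- the tree order: `s ≤ t` when `s` is an ancestor of `t` (or `t` itself) -/
noncomputable instance instPO : PartialOrder T where
  le s t := ∃ i, par^[i] t = s
  le_refl s := ⟨0, rfl⟩
  le_trans := by
    rintro a b c ⟨i, rfl⟩ ⟨j, rfl⟩
    exact ⟨i + j, by rw [Function.iterate_add_apply]⟩
  le_antisymm := by
    rintro a b ⟨i, hi⟩ ⟨j, hj⟩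
    have h1 : dep b = dep a - j := by rw [← hj, dep_iter]
    have h2 : dep a = dep b - i := by rw [← hi, dep_iter]
    by_cases h0 : dep a = 0
    · have ha := eq_root_of_dep a h0
      have hb : b = root := by
        have h3 := hj
        rw [ha, iter_root] at h3
        exact h3.symm
      rw [ha, hb]
    · have hj0 : j = 0 := by omega
      subst hj0
      simpa using hj

lemma le_def {s t : T} : s ≤ t ↔ ∃ i, par^[i] t = s := Iff.rfl

lemma par_le (t : T) : par t ≤ t := ⟨1, rfl⟩

lemma root_le (t : T) : (root : T) ≤ t :=
  ⟨dep t, eq_root_of_dep _ (by rw [dep_iter]; omega)⟩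

lemma dep_mono {s t : T} (h : s ≤ t) : dep s ≤ dep t := by
  obtain ⟨i, rfl⟩ := h
  rw [dep_iter]; omega

lemma dep_lt_of_lt {s t : T} (h : s < t) : dep s < dep t := by
  obtain ⟨⟨i, hi⟩, hne⟩ := lt_iff_le_and_ne.mp h |>.imp id id |> fun x => (⟨x.1, x.2⟩ : _ ∧ _)
  have h2 : dep s = dep t - i := by rw [← hi, dep_iter]
  by_contra hcon
  have hi0 : i = 0 ∨ dep t = 0 := by omega
  rcases hi0 with rfl | h0
  · exact hne (by simpa using hi.symm)
  · have ht := eq_root_of_dep t h0
    apply hne
    rw [← hi, ht, iter_root]

lemma par_lt {t : T} (h : t ≠ root) : par t < t := by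
  refine lt_of_le_of_ne (par_le t) ?_
  intro he
  have := dep_par t h
  rw [he] at this
  omega

lemma le_par_of_lt {s t : T} (h : s < t) : s ≤ par t := by
  obtain ⟨⟨i, hi⟩, hne⟩ := lt_iff_le_and_ne.mp h |>.imp id id |> fun x => (⟨x.1, x.2⟩ : _ ∧ _)
  cases i with
  | zero => exact absurd (by simpa using hi.symm) hne
  | succ n =>
    exact ⟨n, by rw [← hi, Function.iterate_succ_apply]⟩

lemma ne_root_of_lt {s t : T} (h : s < t) : t ≠ root := by
  rintro rfl
  exact absurd (dep_lt_of_lt h) (by rw [dep_root]; omega)

/-- ancestors of a node are linearly ordered -/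
lemma le_total_of_le {a b t : T} (ha : a ≤ t) (hb : b ≤ t) : a ≤ b ∨ b ≤ a := by
  obtain ⟨i, rfl⟩ := ha
  obtain ⟨j, rfl⟩ := hb
  rcases le_total i j with h | h
  · right
    refine ⟨j - i, ?_⟩
    rw [← Function.iterate_add_apply]
    congr 1; omega
  · left
    refine ⟨i - j, ?_⟩
    rw [← Function.iterate_add_apply]
    congr 1; omega

/-- the finite set of ancestors of `t`, including `t` -/
noncomputable def anc (t : T) : Finset T := by
  classical exact (range (dep t + 1)).image (fun i => par^[i] t)

lemma mem_anc {s t : T} : s ∈ anc t ↔ s ≤ t := by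
  classical
  unfold anc
  simp only [mem_image, mem_range]
  constructor
  · rintro ⟨i, -, rfl⟩
    exact ⟨i, rfl⟩
  · rintro ⟨i, rfl⟩
    by_cases h : i < dep t + 1
    · exact ⟨i, h, rfl⟩
    · refine ⟨dep t, by omega, ?_⟩
      have h1 : par^[dep t] t = root := eq_root_of_dep _ (by rw [dep_iter]; omega)
      have h2 : par^[i] t = root := eq_root_of_dep _ (by rw [dep_iter]; omega)
      rw [h1, h2]

/-- levels of comparable non-root nodes agree -/
lemma lev_eq_of_le {s t : T} (h : s ≤ t) (hs : s ≠ root) : lev s = lev t := by
  obtain ⟨i, rfl⟩ := h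
  induction i with
  | zero => rfl
  | succ n ih =>
    rw [Function.iterate_succ_apply'] at hs ⊢
    have hn : par^[n] t ≠ root := by
      intro h0
      apply hs
      rw [h0, par_root]
    rw [lev_par _ hs, ih hn]

/-! ### The concrete tree -/

/-- Nodes of the concrete tree: a level `κ` and a list of length at most `κ`. -/
structure Node where
  /-- the level -/
  κ : ℕ
  /-- the path below the level root, most recent entry first -/
  l : List ℕ
  h : l.length ≤ κ

lemma Node.ext' {a b : Node} (h1 : a.κ = b.κ) (h2 : a.l = b.l) : a = b := by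
  cases a; cases b; simp_all

/-- the root -/
def Node.rt : Node := ⟨0, [], by simp⟩

/-- the parent -/
def Node.pr : Node → Node
  | ⟨κ, [], _⟩ => ⟨0, [], by simp⟩
  | ⟨κ, _ :: l, h⟩ => ⟨κ, l, by simp at h; omega⟩

/-- the depth -/
def Node.dp : Node → ℕ
  | ⟨0, _, _⟩ => 0
  | ⟨_ + 1, l, _⟩ => l.length + 1

/-- the child -/
def Node.ch (t : Node) (k : ℕ) : Node :=
  if h : t.l.length < t.κ then ⟨t.κ, k :: t.l, by simpa using h⟩ else t

noncomputable instance : RTree Node where
  root := Node.rt
  par := Node.pr
  dep := Node.dp
  lev := Node.κ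
  grow := fun t => t.κ - t.l.length
  child := Node.ch
  par_root := rfl
  dep_root := rfl
  eq_root_of_dep := by
    rintro ⟨κ, l, h⟩ hd
    cases κ with
    | zero =>
      have : l = [] := by simpa using h
      subst this; rfl
    | succ n => simp [Node.dp] at hd
  dep_par := by
    rintro ⟨κ, l, h⟩ ht
    cases l with
    | nil =>
      cases κ with
      | zero => exact absurd rfl ht
      | succ n => simp [Node.pr, Node.dp]
    | cons a l =>
      cases κ with
      | zero => simp at h
      | succ n => simp [Node.pr, Node.dp]
  lev_par := by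
    rintro ⟨κ, l, h⟩ ht
    cases l with
    | nil => exact absurd rfl ht
    | cons a l => rfl
  dep_le_lev := by
    rintro ⟨κ, l, h⟩
    cases κ with
    | zero => simp [Node.dp]
    | succ n => simp only [Node.dp]; omega
  par_child := by
    rintro ⟨κ, l, h⟩ k hg
    have h' : l.length < κ := by simpa using hg
    simp [Node.ch, h', Node.pr]
  grow_child := by
    rintro ⟨κ, l, h⟩ k hg
    have h' : l.length < κ := by simpa using hg
    simp only [Node.ch, h', dite_true]
    simp only [List.length_cons]
    omega
  child_inj := by
    rintro ⟨κ, l, h⟩ hg a b hab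
    have h' : l.length < κ := by simpa using hg
    simp only [Node.ch, h', dite_true] at hab
    simpa using hab
  child_ne_root := by
    rintro ⟨κ, l, h⟩ k hg hc
    have h' : l.length < κ := by simpa using hg
    simp only [Node.ch, h', dite_true] at hc
    have := congrArg Node.l hc
    simp [Node.rt] at this
  exists_grow := by
    intro j
    refine ⟨⟨j + 1, [], by simp⟩, ?_, by simp⟩
    intro h
    have := congrArg Node.κ h
    simp [Node.rt] at this

end Vale.Agent.Lib.P069
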