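import Vale.Agent.Lib.P069.Tree

/-!
# The James tree norm on finitely supported functions on a rooted tree
-/

namespace Vale.Agent.Lib.P069

open Finset RTree
open scoped Classical

variable {T : Type} [RTree T]

set_option linter.unusedSectionVars false

/-- A segment: a finite convex chain of the tree (possibly empty). -/
def IsSeg (S : Finset T) : Prop :=
  (∀ a ∈ S, ∀ b ∈ S, a ≤ b ∨ b ≤ a) ∧ ∀ a ∈ S, ∀ c ∈ S, ∀ b, a ≤ b → b ≤ c → b ∈ S

lemma isSeg_empty : IsSeg (∅ : Finset T) := by simp [IsSeg]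

lemma isSeg_singleton (a : T) : IsSeg ({a} : Finset T) := by
  constructor
  · simp
  · intro x hx y hy b h1 h2
    simp only [mem_singleton] at hx hy ⊢
    subst hx; subst hy
    exact le_antisymm h2 h1

/-- the sum of `g` over `S` -/
noncomputable def sg (g : T →₀ ℝ) (S : Finset T) : ℝ := ∑ γ ∈ S, g γ

lemma sg_empty (g : T →₀ ℝ) : sg g ∅ = 0 := by simp [sg]

lemma sg_add (g h : T →₀ ℝ) (S : Finset T) : sg (g + h) S = sg g S + sg h S := by
  simp [sg, sum_add_distrib]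

lemma sg_sub (g h : T →₀ ℝ) (S : Finset T) : sg (g - h) S = sg g S - sg h S := by
  simp [sg, sum_sub_distrib]

lemma sg_smul (c : ℝ) (g : T →₀ ℝ) (S : Finset T) : sg (c • g) S = c * sg g S := by
  simp [sg, mul_sum]

lemma sg_union (g : T →₀ ℝ) {S S' : Finset T} (h : Disjoint S S') :
    sg g (S ∪ S') = sg g S + sg g S' := by
  simp [sg, sum_union h]

/-- An indexed finite family of pairwise disjoint segments. -/
structure Fam {ι : Type} (s : Finset ι) (P : ι → Finset T) : Prop where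
  seg : ∀ i ∈ s, IsSeg (P i)
  disj : ∀ i ∈ s, ∀ j ∈ s, i ≠ j → Disjoint (P i) (P j)

/-- The values of the James tree sum over all families of segments. -/
def vals (g : T →₀ ℝ) : Set ℝ :=
  {v | ∃ 𝒮 : Finset (Finset T), Fam 𝒮 id ∧ v = ∑ S ∈ 𝒮, (sg g S) ^ 2}

lemma sum_disj_le {ι : Type} {s : Finset ι} {P : ι → Finset T}
    (hd : ∀ i ∈ s, ∀ j ∈ s, i ≠ j → Disjoint (P i) (P j))
    (w : T → ℝ) (hw : ∀ γ, 0 ≤ w γ) (D : Finset T) (hD : ∀ i ∈ s, ∀ γ ∈ P i, w γ ≠ 0 → γ ∈ D) :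
    ∑ i ∈ s, ∑ γ ∈ P i, w γ ≤ ∑ γ ∈ D, w γ := by
  have h1 : ∑ i ∈ s, ∑ γ ∈ P i, w γ = ∑ γ ∈ s.biUnion P, w γ := by
    rw [sum_biUnion]
    intro i hi j hj hij
    exact hd i hi j hj hij
  rw [h1]
  have h2 : ∑ γ ∈ s.biUnion P, w γ = ∑ γ ∈ (s.biUnion P).filter (· ∈ D), w γ := by
    symm
    apply sum_subset (filter_subset _ _)
    intro x hx hx'
    by_contra hne
    obtain ⟨i, hi, hxi⟩ := mem_biUnion.mp hx
    exact hx' (mem_filter.mpr ⟨hx, hD i hi x hxi hne⟩)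
  rw [h2]
  apply sum_le_sum_of_subset_of_nonneg
  · intro x hx
    exact (mem_filter.mp hx).2
  · intro x _ _
    exact hw x

/-- the l1 norm of a finitely supported function -/
noncomputable def lone (g : T →₀ ℝ) : ℝ := ∑ γ ∈ g.support, |g γ|

lemma lone_nonneg (g : T →₀ ℝ) : 0 ≤ lone g := sum_nonneg (fun _ _ => abs_nonneg _)

lemma abs_sg_le_sum (g : T →₀ ℝ) (S : Finset T) : |sg g S| ≤ ∑ γ ∈ S, |g γ| :=
  abs_sum_le_sum_abs _ _

lemma sum_abs_le_lone (g : T →₀ ℝ) (S : Finset T) : ∑ γ ∈ S, |g γ| ≤ lone g := by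
  have := sum_disj_le (ι := Unit) (s := {()}) (P := fun _ => S) (by simp) (fun γ => |g γ|)
    (fun _ => abs_nonneg _) g.support (by
      intro i _ γ _ hne
      simpa using hne)
  simpa [lone] using this

lemma vals_bdd (g : T →₀ ℝ) : BddAbove (vals g) := by
  refine ⟨lone g * lone g, ?_⟩
  rintro v ⟨𝒮, h𝒮, rfl⟩
  have h1 : ∑ S ∈ 𝒮, (sg g S) ^ 2 ≤ ∑ S ∈ 𝒮, lone g * ∑ γ ∈ S, |g γ| := by
    apply sum_le_sum
    intro S _
    have h2 : |sg g S| ≤ ∑ γ ∈ S, |g γ| := abs_sg_le_sum g S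
    have h3 : ∑ γ ∈ S, |g γ| ≤ lone g := sum_abs_le_lone g S
    calc (sg g S) ^ 2 = |sg g S| * |sg g S| := by rw [abs_mul_abs_self]; ring
      _ ≤ lone g * ∑ γ ∈ S, |g γ| :=
        mul_le_mul (h2.trans h3) h2 (abs_nonneg _) (lone_nonneg g)
  refine h1.trans ?_
  rw [← mul_sum]
  apply mul_le_mul_of_nonneg_left _ (lone_nonneg g)
  have := sum_disj_le (s := 𝒮) (P := id) h𝒮.disj (fun γ => |g γ|)
    (fun _ => abs_nonneg _) g.support (by
      intro i _ γ _ hne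
      simpa using hne)
  exact this

/-- the square of the James tree norm -/
noncomputable def zsq (g : T →₀ ℝ) : ℝ := sSup (vals g)

lemma zero_mem_vals (g : T →₀ ℝ) : (0 : ℝ) ∈ vals g :=
  ⟨∅, ⟨by simp, by simp⟩, by simp⟩

lemma zsq_nonneg (g : T →₀ ℝ) : 0 ≤ zsq g := le_csSup (vals_bdd g) (zero_mem_vals g)

/-- the James tree norm -/
noncomputable def znorm (g : T →₀ ℝ) : ℝ := Real.sqrt (zsq g)

lemma znorm_nonneg (g : T →₀ ℝ) : 0 ≤ znorm g := Real.sqrt_nonneg _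

lemma znorm_sq (g : T →₀ ℝ) : znorm g ^ 2 = zsq g := Real.sq_sqrt (zsq_nonneg g)

/-- any family of segments is bounded by the norm -/
lemma fam_le {ι : Type} {s : Finset ι} {P : ι → Finset T} (h : Fam s P) (g : T →₀ ℝ) :
    ∑ i ∈ s, (sg g (P i)) ^ 2 ≤ znorm g ^ 2 := by
  rw [znorm_sq]
  have h0 : ∑ i ∈ s, (sg g (P i)) ^ 2 = ∑ i ∈ s.filter (fun i => P i ≠ ∅), (sg g (P i)) ^ 2 := by
    symm
    apply sum_subset (filter_subset _ _)
    intro i his hi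
    have : P i = ∅ := by
      by_contra hne
      exact hi (mem_filter.mpr ⟨his, hne⟩)
    rw [this, sg_empty]; simp
  rw [h0]
  have hinj : Set.InjOn P (s.filter (fun i => P i ≠ ∅) : Finset ι) := by
    intro i hi j hj hij
    by_contra hne
    have hi' := mem_filter.mp hi
    have hj' := mem_filter.mp hj
    have := h.disj i hi'.1 j hj'.1 hne
    rw [hij, disjoint_self] at this
    exact hj'.2 (by simpa using this)
  have h1 : ∑ i ∈ s.filter (fun i => P i ≠ ∅), (sg g (P i)) ^ 2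
      = ∑ S ∈ (s.filter (fun i => P i ≠ ∅)).image P, (sg g S) ^ 2 := by
    rw [sum_image hinj]
  rw [h1]
  apply le_csSup (vals_bdd g)
  refine ⟨_, ⟨?_, ?_⟩, rfl⟩
  · intro S hS
    obtain ⟨i, hi, rfl⟩ := mem_image.mp hS
    exact h.seg i (mem_filter.mp hi).1
  · intro S hS S' hS' hne
    obtain ⟨i, hi, rfl⟩ := mem_image.mp hS
    obtain ⟨j, hj, rfl⟩ := mem_image.mp hS'
    have hij : i ≠ j := by
      rintro rfl
      exact hne rfl
    exact h.disj i (mem_filter.mp hi).1 j (mem_filter.mp hj).1 hij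

/-- upper bound for the norm -/
lemma znorm_le_of {g : T →₀ ℝ} {C : ℝ} (hC : 0 ≤ C)
    (h : ∀ 𝒮 : Finset (Finset T), Fam 𝒮 id → ∑ S ∈ 𝒮, (sg g S) ^ 2 ≤ C ^ 2) : znorm g ≤ C := by
  have h1 : zsq g ≤ C ^ 2 := by
    apply csSup_le ⟨0, zero_mem_vals g⟩
    rintro v ⟨𝒮, h𝒮, rfl⟩
    exact h 𝒮 h𝒮
  calc znorm g ≤ Real.sqrt (C ^ 2) := Real.sqrt_le_sqrt h1
    _ = C := Real.sqrt_sq hC

lemma abs_sg_le_znorm (g : T →₀ ℝ) {S : Finset T} (hS : IsSeg S) : |sg g S| ≤ znorm g := by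
  have h := fam_le (ι := Unit) (s := {()}) (P := fun _ => S)
    ⟨by simpa using hS, by simp⟩ g
  simp only [sum_singleton] at h
  exact abs_le_of_sq_le_sq' h (znorm_nonneg g) |> fun h' => abs_le.mpr h'

lemma sq_sum_le_znorm (g : T →₀ ℝ) (D : Finset T) : ∑ γ ∈ D, (g γ) ^ 2 ≤ znorm g ^ 2 := by
  have h := fam_le (s := D) (P := fun γ => {γ})
    ⟨fun γ _ => isSeg_singleton γ, fun i _ j _ hij => by simpa using hij⟩ g
  simpa [sg] using h

lemma abs_apply_le_znorm (g : T →₀ ℝ) (γ : T) : |g γ| ≤ znorm g := by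
  have := abs_sg_le_znorm g (isSeg_singleton γ)
  simpa [sg] using this

lemma znorm_smul_le (c : ℝ) (g : T →₀ ℝ) : znorm (c • g) ≤ |c| * znorm g := by
  apply znorm_le_of (mul_nonneg (abs_nonneg _) (znorm_nonneg _))
  intro 𝒮 h𝒮
  have h := fam_le h𝒮 g
  simp only [id] at h
  calc ∑ S ∈ 𝒮, (sg (c • g) S) ^ 2 = c ^ 2 * ∑ S ∈ 𝒮, (sg g S) ^ 2 := by
        rw [mul_sum]; apply sum_congr rfl; intro S _; rw [sg_smul]; ring
    _ ≤ c ^ 2 * znorm g ^ 2 := mul_le_mul_of_nonneg_left h (sq_nonneg _)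
    _ = (|c| * znorm g) ^ 2 := by rw [mul_pow, sq_abs]

lemma znorm_add_le (g h : T →₀ ℝ) : znorm (g + h) ≤ znorm g + znorm h := by
  apply znorm_le_of (add_nonneg (znorm_nonneg _) (znorm_nonneg _))
  intro 𝒮 h𝒮
  have h1 := fam_le h𝒮 g
  have h2 := fam_le h𝒮 h
  simp only [id] at h1 h2
  have h3 := Real.sum_mul_le_sqrt_mul_sqrt 𝒮 (fun S => sg g S) (fun S => sg h S)
  have h4 : Real.sqrt (∑ S ∈ 𝒮, (sg g S) ^ 2) ≤ znorm g := by
    rw [← Real.sqrt_sq (znorm_nonneg g)]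
    exact Real.sqrt_le_sqrt h1
  have h5 : Real.sqrt (∑ S ∈ 𝒮, (sg h S) ^ 2) ≤ znorm h := by
    rw [← Real.sqrt_sq (znorm_nonneg h)]
    exact Real.sqrt_le_sqrt h2
  have h6 : ∑ S ∈ 𝒮, sg g S * sg h S ≤ znorm g * znorm h :=
    h3.trans (mul_le_mul h4 h5 (Real.sqrt_nonneg _) (znorm_nonneg _))
  calc ∑ S ∈ 𝒮, (sg (g + h) S) ^ 2
      = ∑ S ∈ 𝒮, (sg g S) ^ 2 + 2 * ∑ S ∈ 𝒮, sg g S * sg h S + ∑ S ∈ 𝒮, (sg h S) ^ 2 := by
        rw [mul_sum, ← sum_add_distrib, ← sum_add_distrib]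
        apply sum_congr rfl
        intro S _
        rw [sg_add]; ring
    _ ≤ (znorm g + znorm h) ^ 2 := by nlinarith

lemma znorm_zero : znorm (0 : T →₀ ℝ) = 0 := by
  apply le_antisymm _ (znorm_nonneg _)
  apply znorm_le_of le_rfl
  intro 𝒮 _
  simp [sg]

lemma eq_zero_of_znorm {g : T →₀ ℝ} (h : znorm g = 0) : g = 0 := by
  ext γ
  have := abs_apply_le_znorm g γ
  rw [h] at this
  simpa using this

/-- the norm on finitely supported functions on the tree -/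
noncomputable instance zNormInst : Norm (T →₀ ℝ) := ⟨znorm⟩

lemma norm_def (g : T →₀ ℝ) : ‖g‖ = znorm g := rfl

lemma zCore : NormedSpace.Core ℝ (T →₀ ℝ) where
  norm_nonneg := znorm_nonneg
  norm_smul c g := by
    change znorm (c • g) = ‖c‖ * znorm g
    apply le_antisymm
    · simpa using znorm_smul_le c g
    · by_cases hc : c = 0
      · subst hc; simp [znorm_nonneg]
      · have h1 := znorm_smul_le c⁻¹ (c • g)
        rw [smul_smul, inv_mul_cancel₀ hc, one_smul, abs_inv] at h1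
        rw [Real.norm_eq_abs]
        have h2 : 0 < |c| := abs_pos.mpr hc
        calc |c| * znorm g ≤ |c| * (|c|⁻¹ * znorm (c • g)) := by gcongr
          _ = znorm (c • g) := by field_simp
  norm_triangle := znorm_add_le
  norm_eq_zero_iff g := ⟨eq_zero_of_znorm, by rintro rfl; exact znorm_zero⟩

noncomputable instance zNACG : NormedAddCommGroup (T →₀ ℝ) := NormedAddCommGroup.ofCore zCore

noncomputable instance zNS : NormedSpace ℝ (T →₀ ℝ) := NormedSpace.ofCore zCore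

lemma fam_le' {ι : Type} {s : Finset ι} {P : ι → Finset T} (h : Fam s P) (g : T →₀ ℝ) :
    ∑ i ∈ s, (sg g (P i)) ^ 2 ≤ ‖g‖ ^ 2 := fam_le h g

lemma norm_le_of {g : T →₀ ℝ} {C : ℝ} (hC : 0 ≤ C)
    (h : ∀ 𝒮 : Finset (Finset T), Fam 𝒮 id → ∑ S ∈ 𝒮, (sg g S) ^ 2 ≤ C ^ 2) : ‖g‖ ≤ C :=
  znorm_le_of hC h

lemma norm_sq_le_of {g : T →₀ ℝ} {C : ℝ}
    (h : ∀ 𝒮 : Finset (Finset T), Fam 𝒮 id → ∑ S ∈ 𝒮, (sg g S) ^ 2 ≤ C) : ‖g‖ ^ 2 ≤ C := by
  change znorm g ^ 2 ≤ C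
  rw [znorm_sq]
  apply csSup_le ⟨0, zero_mem_vals g⟩
  rintro v ⟨𝒮, h𝒮, rfl⟩
  exact h 𝒮 h𝒮

lemma abs_sg_le_norm (g : T →₀ ℝ) {S : Finset T} (hS : IsSeg S) : |sg g S| ≤ ‖g‖ :=
  abs_sg_le_znorm g hS

lemma abs_apply_le_norm (g : T →₀ ℝ) (γ : T) : |g γ| ≤ ‖g‖ := abs_apply_le_znorm g γ

lemma sq_sum_le_norm (g : T →₀ ℝ) (D : Finset T) : ∑ γ ∈ D, (g γ) ^ 2 ≤ ‖g‖ ^ 2 :=
  sq_sum_le_znorm g D

end Vale.Agent.Lib.P069
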